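import Mathlib

/-!
P245, second form of (E2) (helper866): the finite-dimensional algebra.
`t` symmetric, `N e b k = ∂_e t_bk` symmetric in the last two indices, `T d b k = ∑ e, t d e * N e b k`
totally symmetric, `H` symmetric (Hessian of `U`), `u` the gradient, `p = t u`.
-/

set_option linter.all false

namespace Vale.Agent.P245.H866

variable {n : ℕ}

/-- `T d b k = ∑ e, t d e * N e b k` -/
def TT (t : Matrix (Fin n) (Fin n) ℝ) (N : Fin n → Fin n → Fin n → ℝ) (d b k : Fin n) : ℝ :=
  ∑ e, t d e * N e b k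

/-- the canonical cubic term -/
def BB (t : Matrix (Fin n) (Fin n) ℝ) (N : Fin n → Fin n → Fin n → ℝ) (H : Fin n → Fin n → ℝ)
    (u : Fin n → ℝ) : ℝ := ∑ m, ∑ k, ∑ l, u m * H k l * TT t N m k l

section
variable {t : Matrix (Fin n) (Fin n) ℝ} {N : Fin n → Fin n → Fin n → ℝ} {H : Fin n → Fin n → ℝ}
  {u : Fin n → ℝ} {W : Fin n → Fin n → ℝ}

theorem TT_swap (hN : ∀ e b k, N e b k = N e k b) (d b k : Fin n) : TT t N d b k = TT t N d k b := by
  unfold TT
  exact Finset.sum_congr rfl fun e _ => by rw [hN e b k]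

theorem TT_cyc (hN : ∀ e b k, N e b k = N e k b)
    (hT : ∀ d b k, ∑ e, t d e * N e b k = ∑ e, t b e * N e d k) (c b m : Fin n) :
    TT t N c b m = TT t N m c b := by
  have h1 : TT t N c b m = TT t N b c m := hT c b m
  have h2 : TT t N b c m = TT t N b m c := TT_swap hN b c m
  have h3 : TT t N b m c = TT t N m b c := hT b m c
  have h4 : TT t N m b c = TT t N m c b := TT_swap hN m b c
  rw [h1, h2, h3, h4]

/-- reordering of three sums: `∑ a ∑ b ∑ c f a b c = ∑ c ∑ a ∑ b f a b c` -/
theorem sum3 (f : Fin n → Fin n → Fin n → ℝ) :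
    ∑ a, ∑ b, ∑ c, f a b c = ∑ c, ∑ a, ∑ b, f a b c := by
  rw [Finset.sum_congr rfl fun a _ => Finset.sum_comm, Finset.sum_comm]

/-- the mixed term in the form `∑_{b,i} (tH)_{ib} N_{ibm} u_m` -/
theorem x2_eq (hs : ∀ i j, t i j = t j i) (hN : ∀ e b k, N e b k = N e k b)
    (hT : ∀ d b k, ∑ e, t d e * N e b k = ∑ e, t b e * N e d k) :
    ∑ b, ∑ i, (∑ c, t i c * H c b) * (∑ m, N i b m * u m) = BB t N H u := by
  unfold BB
  have e1 : ∀ b, ∑ i, (∑ c, t i c * H c b) * (∑ m, N i b m * u m) =
      ∑ c, ∑ m, u m * H c b * TT t N c b m := by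
    intro b
    have e0 : ∀ i, (∑ c, t i c * H c b) * (∑ m, N i b m * u m) =
        ∑ c, ∑ m, (t i c * H c b) * (N i b m * u m) := fun i => Finset.sum_mul_sum _ _ _ _
    simp only [e0]
    rw [← sum3 (fun c m i => (t i c * H c b) * (N i b m * u m))]
    refine Finset.sum_congr rfl fun c _ => Finset.sum_congr rfl fun m _ => ?_
    unfold TT
    rw [Finset.mul_sum]
    exact Finset.sum_congr rfl fun i _ => by rw [hs c i]; ring
  simp only [e1]
  rw [sum3 (fun b c m => u m * H c b * TT t N c b m)]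
  refine Finset.sum_congr rfl fun m _ => ?_
  rw [Finset.sum_comm]
  exact Finset.sum_congr rfl fun c _ => Finset.sum_congr rfl fun b _ => by rw [TT_cyc hN hT c b m]

/-- `X1 = B` -/
theorem x1_eq (hs : ∀ i j, t i j = t j i) :
    ∑ b, (∑ m, t b m * u m) * (∑ i, ∑ j, N b i j * H i j) = BB t N H u := by
  unfold BB
  have e1 : ∀ b, (∑ m, t b m * u m) * (∑ i, ∑ j, N b i j * H i j) =
      ∑ m, ∑ i, ∑ j, (t b m * u m) * (N b i j * H i j) := by
    intro b
    rw [Finset.sum_mul]
    refine Finset.sum_congr rfl fun m _ => ?_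
    rw [Finset.mul_sum]
    exact Finset.sum_congr rfl fun i _ => by rw [Finset.mul_sum]
  simp only [e1]
  rw [Finset.sum_comm]
  refine Finset.sum_congr rfl fun m _ => ?_
  rw [← sum3 (fun i j b => (t b m * u m) * (N b i j * H i j))]
  refine Finset.sum_congr rfl fun i _ => Finset.sum_congr rfl fun j _ => ?_
  unfold TT
  rw [Finset.mul_sum]
  exact Finset.sum_congr rfl fun b _ => by rw [hs m b]; ring

/-- the algebraic identity behind the second form -/
theorem alg (hs : ∀ i j, t i j = t j i) (hN : ∀ e b k, N e b k = N e k b)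
    (hT : ∀ d b k, ∑ e, t d e * N e b k = ∑ e, t b e * N e d k) (hH : ∀ i j, H i j = H j i) :
    -(∑ b, (∑ m, t b m * u m) * (∑ i, ∑ j, N b i j * H i j))
      + (∑ b, ∑ i, (∑ c, t i c * H c b) * (∑ m, (N i b m * u m + t b m * H i m)))
      + ∑ b, (∑ m, t b m * u m) * u b
    = (∑ j, ∑ k, (∑ m, (N k j m * u m + t j m * H k m)) * (∑ m, (N j k m * u m + t k m * H j m)))
      + (∑ a, ∑ b, W a b * (∑ m, t a m * u m) * (∑ m, t b m * u m))
      - ∑ a, ∑ i, ((∑ b, ∑ e, t i e * W e b * t a b) * (u a * u i)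
        + (∑ b, (∑ e, t b e * N e i a) * (H b a * u i + u a * H b i))
        + (∑ b, ∑ e, N b i e * N e a b) * (u a * u i) - t i a * (u a * u i)) := by
  -- names
  have hB : ∑ b, ∑ i, (∑ c, t i c * H c b) * (∑ m, N i b m * u m) = BB t N H u := x2_eq hs hN hT
  have hX1 := x1_eq (t := t) (N := N) (H := H) (u := u) hs
  rw [hX1]
  set A : ℝ := ∑ b, ∑ i, (∑ c, t i c * H c b) * (∑ m, t b m * H i m) with hA
  have h2 : (∑ b, ∑ i, (∑ c, t i c * H c b) * (∑ m, (N i b m * u m + t b m * H i m))) = BB t N H u + A := by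
    rw [← hB, hA, ← Finset.sum_add_distrib]
    refine Finset.sum_congr rfl fun b _ => ?_
    rw [← Finset.sum_add_distrib]
    refine Finset.sum_congr rfl fun i _ => ?_
    rw [Finset.sum_add_distrib, mul_add]
  set C : ℝ := ∑ j, ∑ k, (∑ m, N k j m * u m) * (∑ m, N j k m * u m) with hC
  have hc1 : ∑ j, ∑ k, (∑ m, N k j m * u m) * (∑ m, t k m * H j m) = BB t N H u := by
    rw [← hB]
    refine Finset.sum_congr rfl fun j _ => Finset.sum_congr rfl fun k _ => ?_
    rw [mul_comm]
    congr 1
    exact Finset.sum_congr rfl fun m _ => by rw [hH j m]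
  have hc2 : ∑ j, ∑ k, (∑ m, t j m * H k m) * (∑ m, N j k m * u m) = BB t N H u := by
    rw [← hc1, Finset.sum_comm]
    exact Finset.sum_congr rfl fun j _ => Finset.sum_congr rfl fun k _ => by rw [mul_comm]
  have hc3 : ∑ j, ∑ k, (∑ m, t j m * H k m) * (∑ m, t k m * H j m) = A := by
    rw [hA]
    refine Finset.sum_congr rfl fun j _ => Finset.sum_congr rfl fun k _ => ?_
    rw [mul_comm]
    congr 1
    exact Finset.sum_congr rfl fun m _ => by rw [hH j m]
  have h3 : (∑ j, ∑ k, (∑ m, (N k j m * u m + t j m * H k m)) * (∑ m, (N j k m * u m + t k m * H j m)))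
      = C + 2 * BB t N H u + A := by
    have : ∀ j k, (∑ m, (N k j m * u m + t j m * H k m)) * (∑ m, (N j k m * u m + t k m * H j m)) =
        (∑ m, N k j m * u m) * (∑ m, N j k m * u m) + (∑ m, N k j m * u m) * (∑ m, t k m * H j m)
        + (∑ m, t j m * H k m) * (∑ m, N j k m * u m) + (∑ m, t j m * H k m) * (∑ m, t k m * H j m) := by
      intro j k
      rw [Finset.sum_add_distrib, Finset.sum_add_distrib]; ring
    rw [Finset.sum_congr rfl fun j _ => Finset.sum_congr rfl fun k _ => this j k]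
    simp only [Finset.sum_add_distrib]
    rw [hc1, hc2, hc3]; ring
  -- the stat terms
  have s1 : ∑ a, ∑ i, (∑ b, ∑ e, t i e * W e b * t a b) * (u a * u i) =
      ∑ a, ∑ b, W a b * (∑ m, t a m * u m) * (∑ m, t b m * u m) := by
    have e1 : ∀ a b, W a b * (∑ m, t a m * u m) * (∑ m, t b m * u m) =
        ∑ i, ∑ j, t i a * W a b * t j b * (u j * u i) := by
      intro a b
      rw [mul_assoc, Finset.sum_mul_sum, Finset.mul_sum]
      refine Finset.sum_congr rfl fun i _ => ?_
      rw [Finset.mul_sum]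
      refine Finset.sum_congr rfl fun j _ => ?_
      rw [hs a i, hs b j]; ring
    simp only [e1]
    have e2 : ∀ a i, (∑ b, ∑ e, t i e * W e b * t a b) * (u a * u i) =
        ∑ b, ∑ e, t i e * W e b * t a b * (u a * u i) := by
      intro a i
      rw [Finset.sum_mul]
      exact Finset.sum_congr rfl fun b _ => by rw [Finset.sum_mul]
    simp only [e2]
    -- LHS: a i b e ; RHS: a' b' i j with a'=e b'=b i=i j=a
    calc ∑ a, ∑ i, ∑ b, ∑ e, t i e * W e b * t a b * (u a * u i)
        = ∑ i, ∑ a, ∑ b, ∑ e, t i e * W e b * t a b * (u a * u i) := Finset.sum_comm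
      _ = ∑ i, ∑ b, ∑ e, ∑ a, t i e * W e b * t a b * (u a * u i) := by
          refine Finset.sum_congr rfl fun i _ => ?_
          rw [Finset.sum_comm]
          refine Finset.sum_congr rfl fun b _ => ?_
          rw [Finset.sum_comm]
      _ = ∑ b, ∑ e, ∑ i, ∑ a, t i e * W e b * t a b * (u a * u i) := by
          rw [Finset.sum_comm]
          refine Finset.sum_congr rfl fun b _ => ?_
          rw [Finset.sum_comm]
      _ = ∑ e, ∑ b, ∑ i, ∑ a, t i e * W e b * t a b * (u a * u i) := Finset.sum_comm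
  have s2 : ∑ a, ∑ i, (∑ b, (∑ e, t b e * N e i a) * (H b a * u i + u a * H b i)) =
      2 * BB t N H u := by
    have e1 : ∀ a i, (∑ b, (∑ e, t b e * N e i a) * (H b a * u i + u a * H b i)) =
        (∑ b, u i * H b a * TT t N b i a) + ∑ b, u a * H b i * TT t N b i a := by
      intro a i
      rw [← Finset.sum_add_distrib]
      refine Finset.sum_congr rfl fun b _ => ?_
      unfold TT
      ring
    simp only [e1, Finset.sum_add_distrib]
    have e2 : ∑ a, ∑ i, ∑ b, u a * H b i * TT t N b i a = BB t N H u := by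
      unfold BB
      refine Finset.sum_congr rfl fun a _ => ?_
      rw [Finset.sum_comm]
      refine Finset.sum_congr rfl fun b _ => Finset.sum_congr rfl fun i _ => ?_
      rw [TT_cyc hN hT b i a]
    have e3 : ∑ a, ∑ i, ∑ b, u i * H b a * TT t N b i a = BB t N H u := by
      rw [← e2, Finset.sum_comm]
      refine Finset.sum_congr rfl fun i _ => Finset.sum_congr rfl fun a _ =>
        Finset.sum_congr rfl fun b _ => ?_
      rw [TT_swap hN b a i]
    rw [e2, e3]; ring
  have s3 : ∑ a, ∑ i, (∑ b, ∑ e, N b i e * N e a b) * (u a * u i) = C := by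
    rw [hC]
    have e1 : ∀ j k, (∑ m, N k j m * u m) * (∑ m, N j k m * u m) =
        ∑ i, ∑ a, N k i j * N j a k * (u a * u i) := by
      intro j k
      rw [Finset.sum_mul_sum]
      refine Finset.sum_congr rfl fun i _ => Finset.sum_congr rfl fun a _ => ?_
      rw [hN k j i, hN j k a]; ring
    simp only [e1]
    have e2 : ∀ a i, (∑ b, ∑ e, N b i e * N e a b) * (u a * u i) =
        ∑ b, ∑ e, N b i e * N e a b * (u a * u i) := by
      intro a i
      rw [Finset.sum_mul]
      exact Finset.sum_congr rfl fun b _ => by rw [Finset.sum_mul]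
    simp only [e2]
    calc ∑ a, ∑ i, ∑ b, ∑ e, N b i e * N e a b * (u a * u i)
        = ∑ i, ∑ a, ∑ b, ∑ e, N b i e * N e a b * (u a * u i) := Finset.sum_comm
      _ = ∑ i, ∑ b, ∑ e, ∑ a, N b i e * N e a b * (u a * u i) := by
          refine Finset.sum_congr rfl fun i _ => ?_
          rw [Finset.sum_comm]
          refine Finset.sum_congr rfl fun b _ => ?_
          rw [Finset.sum_comm]
      _ = ∑ b, ∑ e, ∑ i, ∑ a, N b i e * N e a b * (u a * u i) := by
          rw [Finset.sum_comm]
          refine Finset.sum_congr rfl fun b _ => ?_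
          rw [Finset.sum_comm]
      _ = ∑ e, ∑ b, ∑ i, ∑ a, N b i e * N e a b * (u a * u i) := Finset.sum_comm
  have s4 : ∑ a, ∑ i, t i a * (u a * u i) = ∑ b, (∑ m, t b m * u m) * u b := by
    rw [Finset.sum_comm]
    refine Finset.sum_congr rfl fun b _ => ?_
    rw [Finset.sum_mul]
    exact Finset.sum_congr rfl fun m _ => by ring
  have h4 : ∑ a, ∑ i, ((∑ b, ∑ e, t i e * W e b * t a b) * (u a * u i)
        + (∑ b, (∑ e, t b e * N e i a) * (H b a * u i + u a * H b i))
        + (∑ b, ∑ e, N b i e * N e a b) * (u a * u i) - t i a * (u a * u i)) =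
      (∑ a, ∑ b, W a b * (∑ m, t a m * u m) * (∑ m, t b m * u m)) + 2 * BB t N H u + C
        - ∑ b, (∑ m, t b m * u m) * u b := by
    rw [← s1, ← s2, ← s3, ← s4]
    simp only [Finset.sum_add_distrib, Finset.sum_sub_distrib]
  rw [h2, h3, h4]
  ring

/-- first form: `A1 + Γ` -/
theorem alg1 (hs : ∀ i j, t i j = t j i) (hN : ∀ e b k, N e b k = N e k b)
    (hT : ∀ d b k, ∑ e, t d e * N e b k = ∑ e, t b e * N e d k) (hH : ∀ i j, H i j = H j i) :
    -(∑ b, (∑ m, t b m * u m) * (∑ i, ∑ j, N b i j * H i j))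
      + (∑ b, ∑ i, (∑ c, t i c * H c b) * (∑ m, (N i b m * u m + t b m * H i m)))
      + ∑ b, (∑ m, t b m * u m) * u b
    = (∑ b, ∑ i, (∑ c, t i c * H c b) * (∑ m, t b m * H m i)) + ∑ b, (∑ m, t b m * u m) * u b := by
  have hB : ∑ b, ∑ i, (∑ c, t i c * H c b) * (∑ m, N i b m * u m) = BB t N H u := x2_eq hs hN hT
  have hX1 := x1_eq (t := t) (N := N) (H := H) (u := u) hs
  rw [hX1]
  have h2 : (∑ b, ∑ i, (∑ c, t i c * H c b) * (∑ m, (N i b m * u m + t b m * H i m))) = BB t N H u
      + (∑ b, ∑ i, (∑ c, t i c * H c b) * (∑ m, t b m * H m i)) := by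
    rw [← hB, ← Finset.sum_add_distrib]
    refine Finset.sum_congr rfl fun b _ => ?_
    rw [← Finset.sum_add_distrib]
    refine Finset.sum_congr rfl fun i _ => ?_
    rw [Finset.sum_add_distrib, mul_add]
    congr 2
    exact Finset.sum_congr rfl fun m _ => by rw [hH i m]
  rw [h2]; ring

/-- `A t` is symmetric for `A_jk = ∑ m, (N k j m u_m + t j m H k m)` -/
theorem alg_symm (hs : ∀ i j, t i j = t j i) (hN : ∀ e b k, N e b k = N e k b)
    (hT : ∀ d b k, ∑ e, t d e * N e b k = ∑ e, t b e * N e d k) (hH : ∀ i j, H i j = H j i)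
    (j l : Fin n) :
    ∑ k, (∑ m, (N k j m * u m + t j m * H k m)) * t k l =
      ∑ k, (∑ m, (N k l m * u m + t l m * H k m)) * t k j := by
  have e1 : ∀ j l, ∑ k, (∑ m, (N k j m * u m + t j m * H k m)) * t k l =
      (∑ m, u m * TT t N l j m) + ∑ k, ∑ m, t j m * H k m * t k l := by
    intro j l
    have : ∀ k, (∑ m, (N k j m * u m + t j m * H k m)) * t k l =
        (∑ m, N k j m * u m * t k l) + ∑ m, t j m * H k m * t k l := by
      intro k
      rw [Finset.sum_mul, ← Finset.sum_add_distrib]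
      exact Finset.sum_congr rfl fun m _ => by ring
    rw [Finset.sum_congr rfl fun k _ => this k, Finset.sum_add_distrib]
    congr 1
    rw [Finset.sum_comm]
    refine Finset.sum_congr rfl fun m _ => ?_
    unfold TT
    rw [Finset.mul_sum]
    exact Finset.sum_congr rfl fun k _ => by rw [hs l k]; ring
  rw [e1, e1]
  congr 1
  · refine Finset.sum_congr rfl fun m _ => ?_
    rw [show TT t N l j m = TT t N j l m from hT l j m]
  · rw [Finset.sum_comm]
    refine Finset.sum_congr rfl fun m _ => Finset.sum_congr rfl fun k _ => ?_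
    rw [hs j m, hs k l, hH k m]; ring

end

open scoped MatrixOrder in
theorem fact {A : Matrix (Fin n) (Fin n) ℝ} (hA : A.PosSemidef) :
    ∃ S : Matrix (Fin n) (Fin n) ℝ, A = S.transpose * S := by
  obtain ⟨S, hS⟩ := CStarAlgebra.nonneg_iff_eq_star_mul_self.mp hA.nonneg
  exact ⟨S, by rw [hS, Matrix.star_eq_conjTranspose, Matrix.conjTranspose_eq_transpose_of_trivial]⟩

/-- pointwise Cauchy-Schwarz in the metric `t`: `t` positive definite, `A t` symmetric.
`2 c tr (Z t Aᵀ) ≤ c² tr (t Z t Zᵀ) + tr (A A)` and `0 ≤ tr (A A)` -/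
theorem cs_mat {t A : Matrix (Fin n) (Fin n) ℝ} (ht : t.PosDef) (hA : (A * t).transpose = A * t)
    (Z : Matrix (Fin n) (Fin n) ℝ) (c : ℝ) :
    2 * c * (Z * t * A.transpose).trace ≤ c ^ 2 * (t * Z * t * Z.transpose).trace + (A * A).trace := by
  obtain ⟨B, hB⟩ := fact ht.posSemidef
  have hdet : IsUnit B.det := by
    have h1 : IsUnit t.det := (Matrix.isUnit_iff_isUnit_det t).1 ht.isUnit
    rw [hB, Matrix.det_mul, Matrix.det_transpose] at h1
    exact isUnit_of_mul_isUnit_left h1
  have hBi : B * B⁻¹ = 1 := Matrix.mul_nonsing_inv B hdet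
  have hBi' : B⁻¹ * B = 1 := Matrix.nonsing_inv_mul B hdet
  have hBt : B.transpose * B⁻¹.transpose = 1 := by
    rw [← Matrix.transpose_mul, hBi', Matrix.transpose_one]
  have hBt' : B⁻¹.transpose * B.transpose = 1 := by
    rw [← Matrix.transpose_mul, hBi, Matrix.transpose_one]
  set A' : Matrix (Fin n) (Fin n) ℝ := B⁻¹.transpose * A * B.transpose with hA'
  set Z' : Matrix (Fin n) (Fin n) ℝ := B * Z * B.transpose with hZ'
  have hA's : A'.transpose = A' := by
    have e1 : A' = B⁻¹.transpose * (A * t) * B⁻¹ := by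
      rw [hA', hB]
      calc B⁻¹.transpose * A * B.transpose = B⁻¹.transpose * A * B.transpose * (B * B⁻¹) := by
            rw [hBi, Matrix.mul_one]
        _ = _ := by simp only [Matrix.mul_assoc]
    rw [e1, Matrix.transpose_mul, Matrix.transpose_mul, hA, Matrix.transpose_transpose]
    simp only [Matrix.mul_assoc]
  have t1 : (A * A).trace = (A' * A'.transpose).trace := by
    rw [hA's]
    have : A' * A' = B⁻¹.transpose * (A * A * B.transpose) := by
      rw [hA']
      calc B⁻¹.transpose * A * B.transpose * (B⁻¹.transpose * A * B.transpose)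
          = B⁻¹.transpose * A * (B.transpose * B⁻¹.transpose) * A * B.transpose := by
            simp only [Matrix.mul_assoc]
        _ = _ := by rw [hBt]; simp only [Matrix.mul_assoc, Matrix.one_mul]
    rw [this]
    calc (A * A).trace = (A * A * B.transpose * B⁻¹.transpose).trace := by
          rw [Matrix.mul_assoc (A * A), hBt, Matrix.mul_one]
      _ = _ := Matrix.trace_mul_comm _ _
  have t2 : (Z * t * A.transpose).trace = (Z' * A'.transpose).trace := by
    have : Z' * A'.transpose = B * (Z * t * A.transpose * B⁻¹) := by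
      rw [hZ', hA', hB]
      simp only [Matrix.transpose_mul, Matrix.transpose_transpose, Matrix.mul_assoc]
    rw [this]
    calc (Z * t * A.transpose).trace = (Z * t * A.transpose * B⁻¹ * B).trace := by
          rw [Matrix.mul_assoc _ B⁻¹ B, hBi', Matrix.mul_one]
      _ = _ := Matrix.trace_mul_comm _ _
  have t3 : (t * Z * t * Z.transpose).trace = (Z' * Z'.transpose).trace := by
    have e0 : Z' * Z'.transpose = B * Z * t * Z.transpose * B.transpose := by
      rw [hZ', hB]
      simp only [Matrix.transpose_mul, Matrix.transpose_transpose, Matrix.mul_assoc]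
    have e1 : t * Z * t * Z.transpose = B.transpose * (B * Z * t * Z.transpose) := by
      rw [hB]
      simp only [Matrix.mul_assoc]
    rw [e0, e1]
    exact Matrix.trace_mul_comm _ _
  rw [t1, t2, t3]
  have f1 : ∀ X Y : Matrix (Fin n) (Fin n) ℝ, (X * Y.transpose).trace = ∑ i, ∑ j, X i j * Y i j :=
    fun X Y => rfl
  rw [f1, f1, f1, Finset.mul_sum, Finset.mul_sum, ← Finset.sum_add_distrib]
  refine Finset.sum_le_sum fun i _ => ?_
  rw [Finset.mul_sum, Finset.mul_sum, ← Finset.sum_add_distrib]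
  refine Finset.sum_le_sum fun j _ => ?_
  nlinarith [sq_nonneg (c * Z' i j - A' i j)]

theorem tr_nonneg {t A : Matrix (Fin n) (Fin n) ℝ} (ht : t.PosDef) (hA : (A * t).transpose = A * t) :
    0 ≤ (A * A).trace := by
  have := cs_mat ht hA 0 0
  simpa using this

end Vale.Agent.P245.H866
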