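import Vale.Agent.P254.Bdl.B16
import Vale.Agent.P245.H866.Alg

/-!
P245 (helper866): the two forms of the Bochner identity (E2) for the moment map generator
`L f = tr (t D²f) - ⟨x, ∇f⟩`, for test functions, `t` only Lipschitz (structure `TF V t`):
`E (L U)² = E tr (t D²U t D²U) + E ⟨t ∇U, ∇U⟩` and, with `p = t ∇U`,
`E (L U)² = E tr (Dp Dp) + E ⟨D²V p, p⟩`.
-/

set_option linter.all false

open MeasureTheory Filter Topology Set Metric
open scoped NNReal ENNReal ContDiff
open Vale.Agent.P227.M Vale.Agent.P227.M.K814 Vale.Agent.P254.SN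

namespace Vale.Agent.P245.H866

variable {n : ℕ} {V : E n → ℝ} {t : E n → Matrix (Fin n) (Fin n) ℝ}

/-- the generator in `x`-coordinates -/
noncomputable def Lt (t : E n → Matrix (Fin n) (Fin n) ℝ) (f : E n → ℝ) (x : E n) : ℝ :=
  (∑ i, ∑ j, t x i j * pd i (pd j f) x) - ∑ i, x i * pd i f x

theorem test_pd {f : E n → ℝ} (hf : Test f) (i : Fin n) : Test (pd i f) :=
  ⟨contDiff_pd_top hf.1 i, hcs_pd hf.2 i⟩

theorem test_diff {f : E n → ℝ} (hf : Test f) (x : E n) : DifferentiableAt ℝ f x :=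
  (hf.1.differentiable (by simp)) x

theorem test_c2 {f : E n → ℝ} (hf : Test f) : ContDiff ℝ 2 f := by
  exact_mod_cast contDiff_infty.1 hf.1 2

theorem pd_comm' {f : E n → ℝ} (hf : Test f) (i j : Fin n) (x : E n) :
    pd i (pd j f) x = pd j (pd i f) x := rad_hess_symm (test_c2 hf) x i j

theorem pd_comm_fun {f : E n → ℝ} (hf : Test f) (i j : Fin n) : pd i (pd j f) = pd j (pd i f) :=
  funext fun x => pd_comm' hf i j x

section
variable (h : TF V t)
include h

theorem lc_Lt {f : E n → ℝ} (hf : Test f) : LC (Lt t f) :=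
  (LC.sum _ fun i _ => LC.sum _ fun j _ => LC.mul_left (tll h i j) (Test.lc (test_pd (test_pd hf j) i))).sub
    (LC.sum _ fun i _ => LC.mul_left (ll_coord i) (Test.lc (test_pd hf i)))

theorem lc_Dt {f : E n → ℝ} (hf : Test f) (b : Fin n) : LC (Dt t b f) :=
  LC.sum _ fun m _ => LC.mul_left (tll h b m) (Test.lc (test_pd hf m))

/-- integration by parts: `E (L f) W = - E ∑_b (t∇f)_b ∂_b W` for Lipschitz compactly supported `W` -/
theorem ibpL {f W : E n → ℝ} (hf : Test f) (hW : LC W) :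
    I V (fun x => Lt t f x * W x) = - I V (fun x => ∑ b, Dt t b f x * pd b W x) := by
  have hVc : Continuous V := (h.V2.of_le (by norm_num : (1 : WithTop ℕ∞) ≤ 2)).continuous
  have hfW : ∀ i, LC (fun x => pd i f x * W x) := fun i => LC.mul_left (Test.lc (test_pd hf i)).1 hW
  have h0 : ∀ i, I V (fun x => Dt t i (fun y => pd i f y * W y) x - x i * (pd i f x * W x)) = 0 :=
    fun i => tcore h (hfW i) i (Eventually.of_forall fun x => rfl)
  have hci : ∀ i, CI (fun x => Dt t i (fun y => pd i f y * W y) x - x i * (pd i f x * W x)) := fun i =>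
    (ci_Dt h (hfW i) i).sub (CI.of_lc (LC.mul_left (ll_coord i) (hfW i)))
  have h1 : I V (fun x => ∑ i, (Dt t i (fun y => pd i f y * W y) x - x i * (pd i f x * W x))) = 0 := by
    rw [I_sum _ hVc fun i _ => hci i]
    exact Finset.sum_eq_zero fun i _ => h0 i
  have hc1 : CI (fun x => Lt t f x * W x) := CI.of_lc (LC.mul_left (lc_Lt h hf).1 hW)
  have hc2 : CI (fun x => ∑ b, Dt t b f x * pd b W x) := CI.sum _ fun b _ =>
    CI.mul_left (Bd.of_ll (lc_Dt h hf b).1) (CI.pd hW b)
  have h2 : I V (fun x => Lt t f x * W x + ∑ b, Dt t b f x * pd b W x) = 0 := by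
    rw [← h1]
    refine I_congr ?_
    filter_upwards [hW.ae_diff] with x hx
    have e1 : ∀ i b, pd b (fun y => pd i f y * W y) x = pd b (pd i f) x * W x + pd i f x * pd b W x :=
      fun i b => rpd_mul (test_diff (test_pd hf i) x) hx
    unfold Dt Lt
    simp only [e1]
    have e2 : ∀ i, ∑ b, t x i b * (pd b (pd i f) x * W x + pd i f x * pd b W x) - x i * (pd i f x * W x) =
        (∑ b, t x i b * pd b (pd i f) x) * W x + (∑ b, t x i b * pd i f x * pd b W x)
          - x i * pd i f x * W x := by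
      intro i
      rw [Finset.sum_mul, ← Finset.sum_add_distrib]
      congr 1
      · exact Finset.sum_congr rfl fun b _ => by ring
      · ring
    simp only [e2, Finset.sum_sub_distrib, Finset.sum_add_distrib]
    rw [← Finset.sum_mul, ← Finset.sum_mul]
    have e3 : ∑ i, ∑ b, t x i b * pd i f x * pd b W x = ∑ b, (∑ i, t x b i * pd i f x) * pd b W x := by
      rw [Finset.sum_comm]
      refine Finset.sum_congr rfl fun b _ => ?_
      rw [Finset.sum_mul]
      exact Finset.sum_congr rfl fun i _ => by rw [h.symm x i b]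
    have e4 : ∑ i, ∑ b, t x i b * pd b (pd i f) x = ∑ i, ∑ j, t x i j * pd i (pd j f) x := by
      refine Finset.sum_congr rfl fun i _ => Finset.sum_congr rfl fun b _ => ?_
      rw [pd_comm' hf b i]
    rw [e3, e4]
    ring
  rw [I_add hVc hc1 hc2] at h2
  linarith

/-- `∂_b (L U) = ∑ ∂_b t_ij U_ij + L (U_b) - U_b` a.e. -/
theorem pd_Lt {U : E n → ℝ} (hU : Test U) : ∀ᵐ x, ∀ b,
    pd b (Lt t U) x = (∑ i, ∑ j, pd b (fun y => t y i j) x * pd i (pd j U) x)
      + Lt t (pd b U) x - pd b U x := by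
  filter_upwards [tae h] with x hx b
  have d1 : ∀ i j, DifferentiableAt ℝ (fun y => t y i j * pd i (pd j U) y) x := fun i j =>
    (hx i j).fun_mul (test_diff (test_pd (test_pd hU j) i) x)
  have d2 : ∀ i, DifferentiableAt ℝ (fun y : E n => y i * pd i U y) x := fun i =>
    (rad_diff_coord i x).fun_mul (test_diff (test_pd hU i) x)
  have e0 : Lt t U = fun y => (∑ i, ∑ j, t y i j * pd i (pd j U) y) - ∑ i, y i * pd i U y := rfl
  have e1 : pd b (Lt t U) x = (∑ i, ∑ j, pd b (fun y => t y i j * pd i (pd j U) y) x)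
      - ∑ i, pd b (fun y => y i * pd i U y) x := by
    rw [e0, rpd_sub, rpd_sum, rpd_sum]
    · congr 1
      refine Finset.sum_congr rfl fun i _ => ?_
      rw [rpd_sum fun j _ => d1 i j]
    · exact fun i _ => d2 i
    · exact fun i _ => DifferentiableAt.fun_sum fun j _ => d1 i j
    · exact DifferentiableAt.fun_sum fun i _ => DifferentiableAt.fun_sum fun j _ => d1 i j
    · exact DifferentiableAt.fun_sum fun i _ => d2 i
  have e2 : ∀ i j, pd b (fun y => t y i j * pd i (pd j U) y) x =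
      pd b (fun y => t y i j) x * pd i (pd j U) x + t x i j * pd i (pd j (pd b U)) x := by
    intro i j
    rw [rpd_mul (hx i j) (test_diff (test_pd (test_pd hU j) i) x), pd_comm' (test_pd hU j) b i,
      pd_comm_fun hU b j]
  have e3 : ∀ i, pd b (fun y : E n => y i * pd i U y) x =
      (if i = b then 1 else 0) * pd i U x + x i * pd i (pd b U) x := by
    intro i
    rw [rpd_mul (rad_diff_coord i x) (test_diff (test_pd hU i) x), rpd_coord, pd_comm' hU b i]
  rw [e1]
  simp only [e2, e3, Finset.sum_add_distrib]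
  have e4 : ∑ i, (if i = b then (1 : ℝ) else 0) * pd i U x = pd b U x := by
    rw [Finset.sum_eq_single b]
    · simp
    · intro i _ hi
      rw [if_neg hi]; ring
    · intro hb
      exact absurd (Finset.mem_univ b) hb
  rw [e4]
  unfold Lt
  ring

/-- `∂_i p_b = ∑ (∂_i t_bm U_m + t_bm U_im)` a.e. -/
theorem pd_Dt {U : E n → ℝ} (hU : Test U) : ∀ᵐ x, ∀ i b,
    pd i (Dt t b U) x = ∑ m, (pd i (fun y => t y b m) x * pd m U x + t x b m * pd i (pd m U) x) := by
  filter_upwards [tae h] with x hx i b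
  have e0 : Dt t b U = fun y => ∑ m, t y b m * pd m U y := rfl
  rw [e0, rpd_sum fun m _ => (hx b m).fun_mul (test_diff (test_pd hU m) x)]
  exact Finset.sum_congr rfl fun m _ => rpd_mul (hx b m) (test_diff (test_pd hU m) x)

/-- the three-term expression of `E (L U)²` -/
theorem sq_Lt {U : E n → ℝ} (hU : Test U) :
    I V (fun x => Lt t U x * Lt t U x) = I V (fun x =>
      -(∑ b, Dt t b U x * (∑ i, ∑ j, pd b (fun y => t y i j) x * pd i (pd j U) x))
      + (∑ b, ∑ i, Dt t i (pd b U) x * pd i (Dt t b U) x) + ∑ b, Dt t b U x * pd b U x) := by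
  have hVc : Continuous V := (h.V2.of_le (by norm_num : (1 : WithTop ℕ∞) ≤ 2)).continuous
  have hp : ∀ b, LC (Dt t b U) := lc_Dt h hU
  have hq : ∀ b, LC (fun x => Lt t (pd b U) x * Dt t b U x) := fun b =>
    LC.mul_left (lc_Lt h (test_pd hU b)).1 (hp b)
  have c1 : CI (fun x => ∑ b, Dt t b U x * (∑ i, ∑ j, pd b (fun y => t y i j) x * pd i (pd j U) x)) :=
    CI.sum _ fun b _ => CI.mul_left (Bd.of_ll (hp b).1) (CI.sum _ fun i _ => CI.sum _ fun j _ =>
      CI.mul_left (Bd.pd (tll h i j) b) (CI.of_lc (Test.lc (test_pd (test_pd hU j) i))))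
  have c2 : CI (fun x => ∑ b, Lt t (pd b U) x * Dt t b U x) := CI.sum _ fun b _ => CI.of_lc (hq b)
  have c3 : CI (fun x => ∑ b, Dt t b U x * pd b U x) := CI.sum _ fun b _ =>
    CI.of_lc (LC.mul_left (hp b).1 (Test.lc (test_pd hU b)))
  have c4 : ∀ b, CI (fun x => ∑ i, Dt t i (pd b U) x * pd i (Dt t b U) x) := fun b =>
    CI.sum _ fun i _ => CI.mul_left (Bd.of_ll (lc_Dt h (test_pd hU b) i).1) (CI.pd (hp b) i)
  have c5 : CI (fun x => ∑ b, ∑ i, Dt t i (pd b U) x * pd i (Dt t b U) x) := CI.sum _ fun b _ => c4 b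
  have c6 : CI (fun x => ∑ b, Dt t b U x * pd b (Lt t U) x) := CI.sum _ fun b _ =>
    CI.mul_left (Bd.of_ll (hp b).1) (CI.pd (lc_Lt h hU) b)
  have h2 : I V (fun x => ∑ b, Lt t (pd b U) x * Dt t b U x) =
      - I V (fun x => ∑ b, ∑ i, Dt t i (pd b U) x * pd i (Dt t b U) x) := by
    rw [I_sum _ hVc fun b _ => CI.of_lc (hq b), I_sum _ hVc fun b _ => c4 b, ← Finset.sum_neg_distrib]
    exact Finset.sum_congr rfl fun b _ => ibpL h (test_pd hU b) (hp b)
  have h3 : I V (fun x => ∑ b, Dt t b U x * pd b (Lt t U) x) = I V (fun x =>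
      ((∑ b, Dt t b U x * (∑ i, ∑ j, pd b (fun y => t y i j) x * pd i (pd j U) x))
      + ∑ b, Lt t (pd b U) x * Dt t b U x) - ∑ b, Dt t b U x * pd b U x) := by
    refine I_congr ?_
    filter_upwards [pd_Lt h hU] with x hx
    rw [← Finset.sum_add_distrib, ← Finset.sum_sub_distrib]
    exact Finset.sum_congr rfl fun b _ => by rw [hx b]; ring
  rw [ibpL h hU (lc_Lt h hU), h3, I_sub hVc (c1.add c2) c3, I_add hVc c1 c2, h2]
  have e1 : I V (fun x => -(∑ b, Dt t b U x * (∑ i, ∑ j, pd b (fun y => t y i j) x * pd i (pd j U) x))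
      + (∑ b, ∑ i, Dt t i (pd b U) x * pd i (Dt t b U) x) + ∑ b, Dt t b U x * pd b U x) =
      I V (fun x => ((∑ b, ∑ i, Dt t i (pd b U) x * pd i (Dt t b U) x)
        - (∑ b, Dt t b U x * (∑ i, ∑ j, pd b (fun y => t y i j) x * pd i (pd j U) x)))
        + ∑ b, Dt t b U x * pd b U x) := by
    congr 1; funext x; ring
  rw [e1, I_add hVc (c5.sub c1) c3, I_sub hVc c5 c1]
  ring

/-- the integral of the weak identity tested with `∇U ⊗ ∇U` vanishes -/
theorem stat_sum {U : E n → ℝ} (hU : Test U) :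
    I V (fun x => ∑ a, ∑ i, ((∑ b, ∑ e, t x i e * pd e (pd b V) x * t x a b) * (pd a U x * pd i U x)
      + (∑ b, Dt t b (fun y => t y i a) x * (pd b (pd a U) x * pd i U x + pd a U x * pd b (pd i U) x))
      + (∑ b, ∑ e, pd b (fun y => t y i e) x * pd e (fun y => t y a b) x) * (pd a U x * pd i U x)
      - t x i a * (pd a U x * pd i U x))) = 0 := by
  have hVc : Continuous V := (h.V2.of_le (by norm_num : (1 : WithTop ℕ∞) ≤ 2)).continuous
  have hQ : ∀ a i, LC (fun x => pd a U x * pd i U x) := fun a i =>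
    LC.mul_left (Test.lc (test_pd hU a)).1 (Test.lc (test_pd hU i))
  have hVa : ∀ b, ContDiff ℝ 1 (pd b V) := fun b => FlatB.contDiff_pd h.V2 b
  have e1 : ∀ a i x, ∀ b, pd b (fun y => pd a U y * pd i U y) x =
      pd b (pd a U) x * pd i U x + pd a U x * pd b (pd i U) x := fun a i x b =>
    rpd_mul (test_diff (test_pd hU a) x) (test_diff (test_pd hU i) x)
  have hci : ∀ a i, CI (fun x => (∑ b, ∑ e, t x i e * pd e (pd b V) x * t x a b) * (pd a U x * pd i U x)
      + (∑ b, Dt t b (fun y => t y i a) x * (pd b (pd a U) x * pd i U x + pd a U x * pd b (pd i U) x))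
      + (∑ b, ∑ e, pd b (fun y => t y i e) x * pd e (fun y => t y a b) x) * (pd a U x * pd i U x)
      - t x i a * (pd a U x * pd i U x)) := by
    intro a i
    have hb : ∀ b, CI (fun x => pd b (pd a U) x * pd i U x + pd a U x * pd b (pd i U) x) := fun b =>
      (CI.of_lc (LC.mul_left (Test.lc (test_pd (test_pd hU a) b)).1 (Test.lc (test_pd hU i)))).add
        (CI.of_lc (LC.mul_left (Test.lc (test_pd hU a)).1 (Test.lc (test_pd (test_pd hU i) b))))
    refine CI.sub (CI.add (CI.add ?_ ?_) ?_) ?_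
    · exact CI.mul_left (Bd.sum _ fun b _ => Bd.sum _ fun e _ =>
        ((Bd.of_ll (tll h i e)).mul (Bd.pd (ll_of_contDiff (hVa b)) e)).mul (Bd.of_ll (tll h a b)))
        (CI.of_lc (hQ a i))
    · exact CI.sum _ fun b _ => CI.mul_left (bd_Dt h (tll h i a) b) (hb b)
    · exact CI.mul_left (Bd.sum _ fun b _ => Bd.sum _ fun e _ =>
        (Bd.pd (tll h i e) b).mul (Bd.pd (tll h a b) e)) (CI.of_lc (hQ a i))
    · exact CI.mul_left (Bd.of_ll (tll h i a)) (CI.of_lc (hQ a i))
  rw [I_sum _ hVc fun a _ => CI.sum _ fun i _ => hci a i]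
  refine Finset.sum_eq_zero fun a _ => ?_
  rw [I_sum _ hVc fun i _ => hci a i]
  refine Finset.sum_eq_zero fun i _ => ?_
  have h1 := stat_pair h (hQ a i) a i
  simp only [e1] at h1
  exact h1

/-- **(E2), second form**: `E (L U)² = E tr (Dp Dp) + E ⟨D²V p, p⟩`, `p = t ∇U` -/
theorem e2_second {U : E n → ℝ} (hU : Test U) :
    I V (fun x => Lt t U x * Lt t U x) =
      I V (fun x => ∑ j, ∑ k, pd k (Dt t j U) x * pd j (Dt t k U) x)
      + I V (fun x => ∑ a, ∑ b, pd a (pd b V) x * Dt t a U x * Dt t b U x) := by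
  have hVc : Continuous V := (h.V2.of_le (by norm_num : (1 : WithTop ℕ∞) ≤ 2)).continuous
  have hVa : ∀ b, ContDiff ℝ 1 (pd b V) := fun b => FlatB.contDiff_pd h.V2 b
  have hp : ∀ b, LC (Dt t b U) := lc_Dt h hU
  have c1 : CI (fun x => ∑ j, ∑ k, pd k (Dt t j U) x * pd j (Dt t k U) x) :=
    CI.sum _ fun j _ => CI.sum _ fun k _ => CI.mul_left (Bd.pd (hp j).1 k) (CI.pd (hp k) j)
  have c2 : CI (fun x => ∑ a, ∑ b, pd a (pd b V) x * Dt t a U x * Dt t b U x) :=
    CI.sum _ fun a _ => CI.sum _ fun b _ => CI.mul_left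
      ((Bd.pd (ll_of_contDiff (hVa b)) a).mul (Bd.of_ll (hp a).1)) (CI.of_lc (hp b))
  have hQ : ∀ a i, LC (fun x => pd a U x * pd i U x) := fun a i =>
    LC.mul_left (Test.lc (test_pd hU a)).1 (Test.lc (test_pd hU i))
  have hci : ∀ a i, CI (fun x => (∑ b, ∑ e, t x i e * pd e (pd b V) x * t x a b) * (pd a U x * pd i U x)
      + (∑ b, Dt t b (fun y => t y i a) x * (pd b (pd a U) x * pd i U x + pd a U x * pd b (pd i U) x))
      + (∑ b, ∑ e, pd b (fun y => t y i e) x * pd e (fun y => t y a b) x) * (pd a U x * pd i U x)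
      - t x i a * (pd a U x * pd i U x)) := by
    intro a i
    have hb : ∀ b, CI (fun x => pd b (pd a U) x * pd i U x + pd a U x * pd b (pd i U) x) := fun b =>
      (CI.of_lc (LC.mul_left (Test.lc (test_pd (test_pd hU a) b)).1 (Test.lc (test_pd hU i)))).add
        (CI.of_lc (LC.mul_left (Test.lc (test_pd hU a)).1 (Test.lc (test_pd (test_pd hU i) b))))
    refine CI.sub (CI.add (CI.add ?_ ?_) ?_) ?_
    · exact CI.mul_left (Bd.sum _ fun b _ => Bd.sum _ fun e _ =>
        ((Bd.of_ll (tll h i e)).mul (Bd.pd (ll_of_contDiff (hVa b)) e)).mul (Bd.of_ll (tll h a b)))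
        (CI.of_lc (hQ a i))
    · exact CI.sum _ fun b _ => CI.mul_left (bd_Dt h (tll h i a) b) (hb b)
    · exact CI.mul_left (Bd.sum _ fun b _ => Bd.sum _ fun e _ =>
        (Bd.pd (tll h i e) b).mul (Bd.pd (tll h a b) e)) (CI.of_lc (hQ a i))
    · exact CI.mul_left (Bd.of_ll (tll h i a)) (CI.of_lc (hQ a i))
  have c3 := CI.sum (Finset.univ : Finset (Fin n)) fun a _ =>
    CI.sum (Finset.univ : Finset (Fin n)) fun i _ => hci a i
  have hst := stat_sum h hU
  rw [sq_Lt h hU]
  have e1 : I V (fun x =>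
      -(∑ b, Dt t b U x * (∑ i, ∑ j, pd b (fun y => t y i j) x * pd i (pd j U) x))
      + (∑ b, ∑ i, Dt t i (pd b U) x * pd i (Dt t b U) x) + ∑ b, Dt t b U x * pd b U x) =
      I V (fun x => ((∑ j, ∑ k, pd k (Dt t j U) x * pd j (Dt t k U) x)
      + (∑ a, ∑ b, pd a (pd b V) x * Dt t a U x * Dt t b U x))
      - ∑ a, ∑ i, ((∑ b, ∑ e, t x i e * pd e (pd b V) x * t x a b) * (pd a U x * pd i U x)
      + (∑ b, Dt t b (fun y => t y i a) x * (pd b (pd a U) x * pd i U x + pd a U x * pd b (pd i U) x))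
      + (∑ b, ∑ e, pd b (fun y => t y i e) x * pd e (fun y => t y a b) x) * (pd a U x * pd i U x)
      - t x i a * (pd a U x * pd i U x))) := by
    refine I_congr ?_
    filter_upwards [pd_Dt h hU, h.tot] with x hx hT
    simp only [hx]
    exact alg (t := t x) (N := fun e b k => pd e (fun y => t y b k) x)
      (H := fun i j => pd i (pd j U) x) (u := fun i => pd i U x)
      (W := fun a b => pd a (pd b V) x) (fun i j => h.symm x i j)
      (fun e b k => by rw [show (fun y => t y b k) = fun y => t y k b from funext fun y => h.symm y b k])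
      hT (fun i j => pd_comm' hU i j x)
  rw [e1, I_sub hVc (c1.add c2) c3, I_add hVc c1 c2, hst, sub_zero]

/-- **(E2), first form**: `E (L U)² = E tr (t D²U t D²U) + E ⟨t∇U, ∇U⟩` -/
theorem e2_first {U : E n → ℝ} (hU : Test U) :
    I V (fun x => Lt t U x * Lt t U x) =
      I V (fun x => ∑ b, ∑ i, (∑ c, t x i c * pd c (pd b U) x) * (∑ m, t x b m * pd m (pd i U) x))
      + I V (fun x => ∑ b, Dt t b U x * pd b U x) := by
  have hVc : Continuous V := (h.V2.of_le (by norm_num : (1 : WithTop ℕ∞) ≤ 2)).continuous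
  have hp : ∀ b, LC (Dt t b U) := lc_Dt h hU
  have hth : ∀ i c b, LC (fun x => t x i c * pd c (pd b U) x) := fun i c b =>
    LC.mul_left (tll h i c) (Test.lc (test_pd (test_pd hU b) c))
  have c1 : CI (fun x => ∑ b, ∑ i, (∑ c, t x i c * pd c (pd b U) x) * (∑ m, t x b m * pd m (pd i U) x)) :=
    CI.sum _ fun b _ => CI.sum _ fun i _ => CI.mul_left
      (Bd.sum _ fun c _ => Bd.of_ll (hth i c b).1) (CI.sum _ fun m _ => CI.of_lc (hth b m i))
  have c2 : CI (fun x => ∑ b, Dt t b U x * pd b U x) := CI.sum _ fun b _ =>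
    CI.of_lc (LC.mul_left (hp b).1 (Test.lc (test_pd hU b)))
  rw [sq_Lt h hU, ← I_add hVc c1 c2]
  refine I_congr ?_
  filter_upwards [pd_Dt h hU, h.tot] with x hx hT
  simp only [hx]
  exact alg1 (t := t x) (N := fun e b k => pd e (fun y => t y b k) x)
    (H := fun i j => pd i (pd j U) x) (u := fun i => pd i U x)
    (fun i j => h.symm x i j)
    (fun e b k => by rw [show (fun y => t y b k) = fun y => t y k b from funext fun y => h.symm y b k])
    hT (fun i j => pd_comm' hU i j x)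

/-- `E tr (Dp Dp) ≤ E (L U)²` for convex `V` -/
theorem e2_le {U : E n → ℝ} (hU : Test U)
    (hconv : ∀ x (v : Fin n → ℝ), 0 ≤ ∑ a, ∑ b, pd a (pd b V) x * v a * v b) :
    I V (fun x => ∑ j, ∑ k, pd k (Dt t j U) x * pd j (Dt t k U) x) ≤
      I V (fun x => Lt t U x * Lt t U x) := by
  rw [e2_second h hU]
  have : 0 ≤ I V (fun x => ∑ a, ∑ b, pd a (pd b V) x * Dt t a U x * Dt t b U x) :=
    integral_nonneg fun x => mul_nonneg (hconv x fun a => Dt t a U x) (Real.exp_pos _).le
  linarith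

/-- `Dp · t` is symmetric a.e. -/
theorem dp_symm {U : E n → ℝ} (hU : Test U) : ∀ᵐ x, ∀ j l,
    ∑ k, pd k (Dt t j U) x * t x k l = ∑ k, pd k (Dt t l U) x * t x k j := by
  filter_upwards [pd_Dt h hU, h.tot] with x hx hT j l
  simp only [hx]
  exact alg_symm (t := t x) (N := fun e b k => pd e (fun y => t y b k) x)
    (H := fun i j => pd i (pd j U) x) (u := fun i => pd i U x)
    (fun i j => h.symm x i j)
    (fun e b k => by rw [show (fun y => t y b k) = fun y => t y k b from funext fun y => h.symm y b k])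
    hT (fun i j => pd_comm' hU i j x) j l

end

end Vale.Agent.P245.H866
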