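import Mathlib

/-!
P245, KLS by moment maps, row HP: abstract approximation lemmas.

`J, A : D → H` (`J` the inclusion of test functions in `L²`, `A = L`), `o` the constant function.
-/

set_option linter.all false

open Filter Topology Set

namespace Vale.Agent.P245.HPR

variable {H : Type*} [NormedAddCommGroup H] [InnerProductSpace ℝ H]
variable {D : Type*} [AddCommGroup D] [Module ℝ D]

/-- the data -/
structure Gp (J A : D →ₗ[ℝ] H) (o : H) (Z : ℝ) : Prop where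
  Z_pos : 0 < Z
  oo : inner ℝ o o = Z
  Ao : ∀ f, inner ℝ (A f) o = 0
  gap : ∀ f, ‖J f‖ ^ 2 - (inner ℝ (J f) o) ^ 2 / Z ≤ - inner ℝ (A f) (J f)

variable {J A : D →ₗ[ℝ] H} {o : H} {Z : ℝ}

theorem Gp.normsq (h : Gp J A o Z) (v : H) :
    ‖v - (inner ℝ v o / Z) • o‖ ^ 2 = ‖v‖ ^ 2 - (inner ℝ v o) ^ 2 / Z := by
  have hZ := h.Z_pos.ne'
  rw [norm_sub_sq_real, norm_smul, real_inner_smul_right, mul_pow]
  have h1 : ‖o‖ ^ 2 = Z := by rw [← real_inner_self_eq_norm_sq, h.oo]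
  rw [h1, Real.norm_eq_abs, sq_abs]
  field_simp
  ring

theorem Gp.perp (h : Gp J A o Z) (v : H) : inner ℝ (v - (inner ℝ v o / Z) • o) o = 0 := by
  rw [inner_sub_left, real_inner_smul_left, h.oo, div_mul_cancel₀ _ h.Z_pos.ne', sub_self]

theorem Gp.inner_perp (h : Gp J A o Z) (f : D) (v : H) :
    inner ℝ (A f) (v - (inner ℝ v o / Z) • o) = inner ℝ (A f) v := by
  rw [inner_sub_right, real_inner_smul_right, h.Ao, mul_zero, sub_zero]

theorem Gp.le_A (h : Gp J A o Z) (f : D) : ‖J f - (inner ℝ (J f) o / Z) • o‖ ≤ ‖A f‖ := by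
  set r := J f - (inner ℝ (J f) o / Z) • o with hr
  have h1 : ‖r‖ ^ 2 ≤ - inner ℝ (A f) r := by
    rw [hr, h.normsq, h.inner_perp]
    exact h.gap f
  have h2 : - inner ℝ (A f) r ≤ ‖A f‖ * ‖r‖ := by
    have := abs_real_inner_le_norm (A f) r
    exact (neg_le_abs _).trans this
  by_contra hcon
  push Not at hcon
  have h3 : 0 < ‖r‖ := lt_of_le_of_lt (norm_nonneg _) hcon
  have h4 : ‖A f‖ * ‖r‖ < ‖r‖ * ‖r‖ := mul_lt_mul_of_pos_right hcon h3
  nlinarith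

/-- approximate solutions of `A f = -g` -/
theorem Gp.approx (h : Gp J A o Z) (hd : ∀ s : ℝ, 0 < s → Dense (Set.range fun f => J f - s • A f))
    {g : H} (hg : inner ℝ g o = 0) {δ : ℝ} (hδ : 0 < δ) : ∃ f : D, ‖A f + g‖ ≤ δ := by
  set s : ℝ := max 2 ((4 + 2 * ‖g‖) / δ) with hs
  have hs2 : 2 ≤ s := le_max_left _ _
  have hs0 : 0 < s := by linarith
  have hsδ : 4 + 2 * ‖g‖ ≤ s * δ := by
    have : (4 + 2 * ‖g‖) / δ ≤ s := le_max_right _ _
    rwa [div_le_iff₀ hδ] at this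
  obtain ⟨_, hy, f, rfl⟩ := (Metric.dense_iff.1 (hd s hs0)) (s • g) 1 one_pos
  refine ⟨f, ?_⟩
  set r := J f - s • A f - s • g with hr
  have hr1 : ‖r‖ ≤ 1 := by
    have := Metric.mem_ball.1 hy
    rw [dist_eq_norm] at this
    exact this.le
  have hJo : inner ℝ (J f) o = inner ℝ r o := by
    rw [hr, inner_sub_left, inner_sub_left, real_inner_smul_left, real_inner_smul_left, h.Ao, hg]
    ring
  have ho : ‖o‖ ^ 2 = Z := by rw [← real_inner_self_eq_norm_sq, h.oo]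
  have h1 : ‖(inner ℝ (J f) o / Z) • o‖ ≤ 1 := by
    rw [hJo, norm_smul, Real.norm_eq_abs, abs_div, abs_of_pos h.Z_pos]
    have h2 : |inner ℝ r o| ≤ ‖r‖ * ‖o‖ := abs_real_inner_le_norm _ _
    rw [div_mul_eq_mul_div, div_le_one h.Z_pos]
    calc |inner ℝ r o| * ‖o‖ ≤ (‖r‖ * ‖o‖) * ‖o‖ := mul_le_mul_of_nonneg_right h2 (norm_nonneg _)
      _ = ‖r‖ * Z := by rw [← ho]; ring
      _ ≤ 1 * Z := mul_le_mul_of_nonneg_right hr1 h.Z_pos.le
      _ = Z := one_mul _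
  have h2 : ‖J f‖ ≤ ‖A f‖ + 1 := by
    have e : J f = (J f - (inner ℝ (J f) o / Z) • o) + (inner ℝ (J f) o / Z) • o := by abel
    calc ‖J f‖ = ‖(J f - (inner ℝ (J f) o / Z) • o) + (inner ℝ (J f) o / Z) • o‖ := by rw [← e]
      _ ≤ ‖J f - (inner ℝ (J f) o / Z) • o‖ + ‖(inner ℝ (J f) o / Z) • o‖ := norm_add_le _ _
      _ ≤ ‖A f‖ + 1 := add_le_add (h.le_A f) h1
  have h3 : ‖A f‖ ≤ ‖A f + g‖ + ‖g‖ := by
    have e : A f = (A f + g) - g := by abel
    calc ‖A f‖ = ‖(A f + g) - g‖ := by rw [← e]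
      _ ≤ ‖A f + g‖ + ‖g‖ := norm_sub_le _ _
  have h4 : s * ‖A f + g‖ ≤ ‖J f‖ + 1 := by
    have e : s • (A f + g) = J f - r := by rw [hr, smul_add]; abel
    calc s * ‖A f + g‖ = ‖s • (A f + g)‖ := by rw [norm_smul, Real.norm_eq_abs, abs_of_pos hs0]
      _ = ‖J f - r‖ := by rw [e]
      _ ≤ ‖J f‖ + ‖r‖ := norm_sub_le _ _
      _ ≤ ‖J f‖ + 1 := by linarith
  have h5 : s * ‖A f + g‖ ≤ ‖A f + g‖ + ‖g‖ + 2 := by linarith
  by_contra hcon
  push Not at hcon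
  nlinarith [norm_nonneg g, norm_nonneg (A f + g)]

/-- from `b² ≤ C a²`-type data with a vanishing error -/
theorem sq_le_of_eps {S K R : ℝ} (hS : 0 ≤ S) (hK : 0 ≤ K) (hR : 0 ≤ R)
    (h : ∀ δ : ℝ, 0 < δ → δ ≤ 1 → 2 * S ≤ K * (S + δ * R) + K⁻¹ * 0 + δ * R) : 2 * S ≤ K * S := by
  have h1 : ∀ δ : ℝ, 0 < δ → δ ≤ 1 → 2 * S ≤ K * S + δ * (K * R + R) := by
    intro δ hδ hδ1
    have := h δ hδ hδ1
    linarith
  by_contra hcon
  push Not at hcon
  set q := 2 * S - K * S with hq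
  have hq0 : 0 < q := by linarith
  have hM : 0 < K * R + R + 1 := by positivity
  have hδ0 : 0 < min 1 (q / (2 * (K * R + R + 1))) := lt_min one_pos (by positivity)
  have := h1 _ hδ0 (min_le_left _ _)
  have h3 : min 1 (q / (2 * (K * R + R + 1))) * (K * R + R) ≤ q / 2 := by
    calc min 1 (q / (2 * (K * R + R + 1))) * (K * R + R)
        ≤ (q / (2 * (K * R + R + 1))) * (K * R + R + 1) :=
          mul_le_mul (min_le_right _ _) (by linarith) (by positivity) (by positivity)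
      _ = q / 2 := by field_simp
  linarith

/-- `a ≤ b + δ R` for all small `δ > 0` gives `a ≤ b` -/
theorem le_of_eps {a b R : ℝ} (h : ∀ δ : ℝ, 0 < δ → δ ≤ 1 → a ≤ b + δ * R) : a ≤ b := by
  refine le_of_forall_pos_le_add fun ε hε => ?_
  have hM : 0 < |R| + 1 := by positivity
  have hδ0 : 0 < min 1 (ε / (|R| + 1)) := lt_min one_pos (by positivity)
  have h1 := h _ hδ0 (min_le_left _ _)
  have h3 : min 1 (ε / (|R| + 1)) * R ≤ ε := by
    calc min 1 (ε / (|R| + 1)) * R ≤ min 1 (ε / (|R| + 1)) * |R| :=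
          mul_le_mul_of_nonneg_left (le_abs_self R) hδ0.le
      _ ≤ (ε / (|R| + 1)) * (|R| + 1) :=
          mul_le_mul (min_le_right _ _) (by linarith) (abs_nonneg _) (by positivity)
      _ = ε := by field_simp
  linarith

/-- Bessel: `x_i` orthogonal of square `Z`, then `∑ ⟨x_i, u⟩² ≤ Z |u|²` -/
theorem bessel {ι : Type*} [Fintype ι] {X : ι → H} {Z : ℝ} (hZ : 0 < Z)
    (hd : ∀ i, inner ℝ (X i) (X i) = Z) (ho : ∀ i j, i ≠ j → inner ℝ (X i) (X j) = 0) (u : H) :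
    ∑ i, (inner ℝ (X i) u) ^ 2 ≤ Z * ‖u‖ ^ 2 := by
  classical
  set w : H := ∑ i, (inner ℝ (X i) u / Z) • X i with hw
  have h1 : inner ℝ w u = (∑ i, (inner ℝ (X i) u) ^ 2) / Z := by
    rw [hw, sum_inner, Finset.sum_div]
    refine Finset.sum_congr rfl fun i _ => ?_
    rw [real_inner_smul_left]
    ring
  have h2 : inner ℝ w w = (∑ i, (inner ℝ (X i) u) ^ 2) / Z := by
    have e1 : inner ℝ w w = ∑ i, ∑ j, (inner ℝ (X i) u / Z) * (inner ℝ (X j) u / Z) * inner ℝ (X i) (X j) := by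
      rw [hw, sum_inner]
      refine Finset.sum_congr rfl fun i _ => ?_
      rw [inner_sum]
      refine Finset.sum_congr rfl fun j _ => ?_
      rw [real_inner_smul_left, real_inner_smul_right]
      ring
    rw [e1, Finset.sum_div]
    refine Finset.sum_congr rfl fun i _ => ?_
    rw [Finset.sum_eq_single i]
    · rw [hd i]
      field_simp
    · intro j _ hj
      rw [ho i j hj.symm, mul_zero]
    · intro hi; exact absurd (Finset.mem_univ _) hi
  have h3 : 0 ≤ ‖u - w‖ ^ 2 := sq_nonneg _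
  rw [norm_sub_sq_real, real_inner_comm, h1, ← real_inner_self_eq_norm_sq w, h2] at h3
  have h4 : (∑ i, (inner ℝ (X i) u) ^ 2) / Z ≤ ‖u‖ ^ 2 := by linarith
  rwa [div_le_iff₀ hZ, mul_comm] at h4

end Vale.Agent.P245.HPR
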