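import Vale.Agent.P245.K.Iface
import Vale.Agent.P245.K.OP3
import Vale.Agent.P245.H866.E2
import Vale.Agent.P245.H866.HPAbs

/-!
P245, KLS by moment maps, rows E2 and HP: from the inequality (K)

  `E ∑_ij t_ij Γ(ζ_i, ζ_j) ≤ C₀ E ∑_i (L ζ_i)²`  (test functions `ζ_i`)

and the spectral gap `1` to the Poincaré inequality with constant `C₀ + 1` for isotropic `V`.

For a test function `f`, `L U ≈ -(f - E f)`, `p = t ∇U`, `L ζ_j ≈ -(p_j - E p_j)`; then
`∑ |p_j - E p_j|² ≈ E ∑ Γ(ζ_j, p_j)`, pointwise `2 c tr(Z t Aᵀ) ≤ c² tr (t Z t Zᵀ) + tr A²`,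
`A = ∇p`, `Z = ∇ζ`, and `E tr A² ≤ E (L U)²`; and `E p_j = E x_j U`, Bessel.
-/

set_option linter.all false

open MeasureTheory Filter Topology Set
open scoped NNReal ENNReal ContDiff
open Vale.Agent.P227.M Vale.Agent.P227.M.K814 Vale.Agent.P254.SN

namespace Vale.Agent.P245.HPR

open Vale.Agent.P245.H464 (TE Lt Gam mu TS JJ AA inner_toLp normsq_toLp inner_AJ neg_AJ sym_AJ dense_JA
  ibpL ibpL' memLp_ci)
open Vale.Agent.P245.K.OP3 (memLp_GB memLp_LC)

variable {n : ℕ} {V : E n → ℝ} {t : E n → Matrix (Fin n) (Fin n) ℝ} {lam Lam c1 C1 : ℝ}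

/-- (K) for test functions -/
def KI (V : E n → ℝ) (t : E n → Matrix (Fin n) (Fin n) ℝ) (C : ℝ) : Prop :=
  ∀ ζ : Fin n → E n → ℝ, (∀ i, Test (ζ i)) →
    I V (fun x => ∑ i, ∑ j, t x i j * Gam t (ζ i) (ζ j) x) ≤ C * ∑ i, I V (fun x => Lt t (ζ i) x ^ 2)

theorem posDef (h : TE V t lam Lam) (x : E n) : (t x).PosDef := by
  refine Matrix.PosDef.of_dotProduct_mulVec_pos ?_ fun v hv => ?_
  · ext i j
    simp [h.symm x i j]
  · have h1 := h.low x (WithLp.toLp 2 v)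
    have h2 : 0 < ‖(WithLp.toLp 2 v : E n)‖ := by
      rw [norm_pos_iff]
      intro h0
      apply hv
      have := congrArg WithLp.ofLp h0
      simpa using this
    have h3 : 0 < lam * ‖(WithLp.toLp 2 v : E n)‖ ^ 2 := mul_pos h.lam_pos (pow_pos h2 2)
    have e : qf (t x) (WithLp.toLp 2 v) = v ⬝ᵥ (t x).mulVec v := by
      rw [rad_qf]; rfl
    rw [e] at h1
    simpa using lt_of_lt_of_le h3 h1

/-- the constant function as an element of `L²` -/
noncomputable def oo (hR : Reg V c1 C1) : MeasureTheory.Lp ℝ 2 (mu V) :=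
  (memLp_GB hR (GB.const 1)).toLp (fun _ => 1)

theorem conv_of_reg (hR : Reg V c1 C1) (x : E n) (v : Fin n → ℝ) :
    0 ≤ ∑ a, ∑ b, pd a (pd b V) x * v a * v b := by
  have h1 := hR.lower x (WithLp.toLp 2 v)
  have h2 : 0 ≤ c1 * ‖(WithLp.toLp 2 v : E n)‖ ^ 2 := mul_nonneg hR.c_pos.le (sq_nonneg _)
  exact h2.trans h1

/-- row E2 -/
theorem e2 : Vale.Agent.P245.K.StmtE2 := by
  intro n V t c C hb U hU
  obtain ⟨c1, C1, hR⟩ := hb.reg
  have h1 := Vale.Agent.P245.H866.e2_le hb.toTF hU (conv_of_reg hR)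
  have e1 : I V (fun x => (Lt t U x) ^ 2) =
      I V (fun x => Vale.Agent.P245.H866.Lt t U x * Vale.Agent.P245.H866.Lt t U x) := by
    congr 1
    funext x
    rw [sq]
    rfl
  have e2 : I V (fun x => ∑ a, ∑ b, pd a (fun y => Dt t b U y) x * pd b (fun y => Dt t a U y) x) =
      I V (fun x => ∑ j, ∑ k, pd k (Dt t j U) x * pd j (Dt t k U) x) := by
    congr 1
    funext x
    exact Finset.sum_congr rfl fun a _ => Finset.sum_congr rfl fun b _ => mul_comm _ _
  rw [e1, e2]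
  exact h1

/-- `J f`, `A f` and inner products with `o` -/
theorem inner_Jo (h : TE V t lam Lam) (hR : Reg V c1 C1) (f : TS n) :
    inner ℝ (JJ h.toTF f) (oo hR) = I V f.1 := by
  have := inner_toLp h.V2.continuous (memLp_ci h.V2.continuous (CI.of_lc (Test.lc f.2)))
    (memLp_GB hR (GB.const 1))
  rw [show inner ℝ (JJ h.toTF f) (oo hR) = _ from this]
  unfold I
  simp

theorem inner_Ao (h : TE V t lam Lam) (hR : Reg V c1 C1) (f : TS n) :
    inner ℝ (AA h.toTF f) (oo hR) = 0 := by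
  have := inner_toLp h.V2.continuous (memLp_ci h.V2.continuous (CI.of_lc (Vale.Agent.P245.H464.lc_Lt h.toTF f.2)))
    (memLp_GB hR (GB.const 1))
  rw [show inner ℝ (AA h.toTF f) (oo hR) = _ from this]
  have h2 := ibpL h.toTF f.2 (g := fun _ => (1 : ℝ)) (LocallyLipschitz.const 1)
    (Eventually.of_forall fun x => differentiableAt_const _)
  have e : (fun x => Lt t f.1 x * (1 : ℝ) + Gam t f.1 (fun _ => (1 : ℝ)) x) =
      fun x => Lt t f.1 x * (1 : ℝ) := by
    funext x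
    unfold Vale.Agent.P245.H464.Gam
    simp [rpd_const]
  rw [e] at h2
  exact h2

theorem inner_oo (h : TE V t lam Lam) (hR : Reg V c1 C1) :
    inner ℝ (oo hR) (oo hR) = I V (fun _ => 1) := by
  have := inner_toLp h.V2.continuous (memLp_GB hR (GB.const 1)) (memLp_GB hR (GB.const 1))
  rw [show inner ℝ (oo hR) (oo hR) = _ from this]
  unfold I
  simp

theorem Z_eq : I V (fun _ => 1) = ∫ x, Real.exp (-V x) := by
  unfold I
  simp

theorem Z_pos (hR : Reg V c1 C1) : 0 < I V (fun _ => 1) := by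
  rw [Z_eq]
  exact hR.Z_pos

/-- the data -/
theorem gp (h : TE V t lam Lam) (hR : Reg V c1 C1)
    (hgap : ∀ f : TS n, ‖JJ h.toTF f‖ ^ 2 - (inner ℝ (JJ h.toTF f) (oo hR)) ^ 2 / I V (fun _ => 1) ≤
      - inner ℝ (AA h.toTF f) (JJ h.toTF f)) :
    Gp (JJ h.toTF) (AA h.toTF) (oo hR) (I V (fun _ => 1)) where
  Z_pos := Z_pos hR
  oo := inner_oo h hR
  Ao := inner_Ao h hR
  gap := hgap

theorem dens (h : TE V t lam Lam) (s : ℝ) (hs : 0 < s) :
    Dense (Set.range fun f => JJ h.toTF f - s • AA h.toTF f) :=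
  Vale.Agent.P245.H464.Abs.dense_smul (sym_AJ h.toTF) (neg_AJ h) (dense_JA h) hs

/-- `p_j` -/
noncomputable def PP (h : TE V t lam Lam) (hR : Reg V c1 C1) (U : TS n) (j : Fin n) :
    MeasureTheory.Lp ℝ 2 (mu V) :=
  (memLp_LC hR (Vale.Agent.P245.H866.lc_Dt h.toTF U.2 j)).toLp (Dt t j U.1)

theorem inner_AP (h : TE V t lam Lam) (hR : Reg V c1 C1) (U ζ : TS n) (j : Fin n) :
    inner ℝ (AA h.toTF ζ) (PP h hR U j) = - I V (Gam t ζ.1 (Dt t j U.1)) := by
  have := inner_toLp h.V2.continuous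
    (memLp_ci h.V2.continuous (CI.of_lc (Vale.Agent.P245.H464.lc_Lt h.toTF ζ.2)))
    (memLp_LC hR (Vale.Agent.P245.H866.lc_Dt h.toTF U.2 j))
  rw [show inner ℝ (AA h.toTF ζ) (PP h hR U j) = _ from this]
  exact ibpL' h.toTF ζ.2 (Vale.Agent.P245.H866.lc_Dt h.toTF U.2 j)

theorem normsq_A (h : TE V t lam Lam) (f : TS n) : ‖AA h.toTF f‖ ^ 2 = I V (fun x => Lt t f.1 x ^ 2) :=
  normsq_toLp h.V2.continuous
    (memLp_ci h.V2.continuous (CI.of_lc (Vale.Agent.P245.H464.lc_Lt h.toTF f.2)))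

theorem normsq_J (h : TE V t lam Lam) (f : TS n) : ‖JJ h.toTF f‖ ^ 2 = I V (fun x => f.1 x ^ 2) :=
  normsq_toLp h.V2.continuous (memLp_ci h.V2.continuous (CI.of_lc (Test.lc f.2)))

theorem normsq_P (h : TE V t lam Lam) (hR : Reg V c1 C1) (U : TS n) (j : Fin n) :
    ‖PP h hR U j‖ ^ 2 = I V (fun x => Dt t j U.1 x ^ 2) :=
  normsq_toLp h.V2.continuous _

/-- the integrated matrix inequality -/
theorem mat_int (h : TE V t lam Lam) (hR : Reg V c1 C1) {CK : ℝ} (hK : KI V t CK)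
    (U : TS n) (ζ : Fin n → TS n) {c : ℝ} :
    2 * c * I V (fun x => ∑ j, Gam t (ζ j).1 (Dt t j U.1) x) ≤
      c ^ 2 * (CK * ∑ j, ‖AA h.toTF (ζ j)‖ ^ 2) + ‖AA h.toTF U‖ ^ 2 := by
  have hV : Continuous V := h.V2.continuous
  have lcP : ∀ j, LC (Dt t j U.1) := fun j => Vale.Agent.P245.H866.lc_Dt h.toTF U.2 j
  have ciG : ∀ j, CI (Gam t (ζ j).1 (Dt t j U.1)) := fun j =>
    Vale.Agent.P245.H464.ci_Gam h.toTF (Test.lc (ζ j).2) (lcP j).1
  have ciS : CI (fun x => ∑ j, Gam t (ζ j).1 (Dt t j U.1) x) := CI.sum _ fun j _ => ciG j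
  have ciK : CI (fun x => ∑ i, ∑ j, t x i j * Gam t (ζ i).1 (ζ j).1 x) :=
    CI.sum _ fun i _ => CI.sum _ fun j _ => CI.mul_left (Bd.of_ll (tll h.toTF i j))
      (Vale.Agent.P245.H464.ci_Gam h.toTF (Test.lc (ζ i).2) (Test.lc (ζ j).2).1)
  have ciT : CI (fun x => ∑ j, ∑ k, pd k (Dt t j U.1) x * pd j (Dt t k U.1) x) :=
    CI.sum _ fun j _ => CI.sum _ fun k _ => CI.mul_right (CI.pd (lcP j) k) (Bd.pd (lcP k).1 j)
  have cc : ∀ r : ℝ, Bd (fun _ : E n => r) := fun r => Bd.of_cont continuous_const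
  have hle : I V (fun x => (2 * c) * ∑ j, Gam t (ζ j).1 (Dt t j U.1) x) ≤
      I V (fun x => c ^ 2 * (∑ i, ∑ j, t x i j * Gam t (ζ i).1 (ζ j).1 x) +
        ∑ j, ∑ k, pd k (Dt t j U.1) x * pd j (Dt t k U.1) x) := by
    refine I_mono hV (CI.mul_left (cc _) ciS) (CI.add (CI.mul_left (cc _) ciK) ciT) ?_
    filter_upwards [Vale.Agent.P245.H866.dp_symm h.toTF U.2] with x hx
    set Zm : Matrix (Fin n) (Fin n) ℝ := fun j a => pd a (ζ j).1 x with hZm
    set Am : Matrix (Fin n) (Fin n) ℝ := fun j b => pd b (Dt t j U.1) x with hAm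
    have hA : (Am * t x).transpose = Am * t x := by
      ext i j
      rw [Matrix.transpose_apply, Matrix.mul_apply, Matrix.mul_apply]
      exact hx j i
    have h1 := Vale.Agent.P245.H866.cs_mat (posDef h x) hA Zm c
    have e1 : (Zm * t x * Am.transpose).trace = ∑ j, Gam t (ζ j).1 (Dt t j U.1) x := by
      simp only [Matrix.trace, Matrix.diag, Matrix.mul_apply, Matrix.transpose_apply]
      refine Finset.sum_congr rfl fun j _ => ?_
      unfold Vale.Agent.P245.H464.Gam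
      rw [Finset.sum_comm]
      refine Finset.sum_congr rfl fun b _ => ?_
      rw [Finset.sum_mul]
      refine Finset.sum_congr rfl fun a _ => ?_
      rw [hZm, hAm]
      ring
    have e2 : (t x * Zm * t x * Zm.transpose).trace =
        ∑ i, ∑ j, t x i j * Gam t (ζ i).1 (ζ j).1 x := by
      rw [Matrix.mul_assoc, Matrix.mul_assoc]
      simp only [Matrix.trace, Matrix.diag]
      refine Finset.sum_congr rfl fun i _ => ?_
      rw [Matrix.mul_apply]
      refine Finset.sum_congr rfl fun j _ => ?_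
      congr 1
      rw [← Matrix.mul_assoc, Matrix.mul_apply, Vale.Agent.P245.H464.Gam_symm h.toTF]
      unfold Vale.Agent.P245.H464.Gam
      rw [Finset.sum_comm]
      refine Finset.sum_congr rfl fun b _ => ?_
      rw [Matrix.mul_apply, Finset.sum_mul]
      refine Finset.sum_congr rfl fun a _ => ?_
      rw [Matrix.transpose_apply, hZm]
      ring
    have e3 : (Am * Am).trace = ∑ j, ∑ k, pd k (Dt t j U.1) x * pd j (Dt t k U.1) x := by
      simp only [Matrix.trace, Matrix.diag, Matrix.mul_apply]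
      rfl
    rw [e1, e2, e3] at h1
    exact h1
  have l1 : I V (fun x => (2 * c) * ∑ j, Gam t (ζ j).1 (Dt t j U.1) x) =
      2 * c * I V (fun x => ∑ j, Gam t (ζ j).1 (Dt t j U.1) x) := by
    unfold I
    rw [← integral_const_mul]
    congr 1; ext x; ring
  have l2 : I V (fun x => c ^ 2 * (∑ i, ∑ j, t x i j * Gam t (ζ i).1 (ζ j).1 x) +
        ∑ j, ∑ k, pd k (Dt t j U.1) x * pd j (Dt t k U.1) x) =
      c ^ 2 * I V (fun x => ∑ i, ∑ j, t x i j * Gam t (ζ i).1 (ζ j).1 x) +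
        I V (fun x => ∑ j, ∑ k, pd k (Dt t j U.1) x * pd j (Dt t k U.1) x) := by
    rw [I_add hV (CI.mul_left (cc _) ciK) ciT]
    congr 1
    unfold I
    rw [← integral_const_mul]
    congr 1; ext x; ring
  rw [l1, l2] at hle
  have h3 := hK (fun j => (ζ j).1) fun j => (ζ j).2
  have h4 := Vale.Agent.P245.H866.e2_le h.toTF U.2 (conv_of_reg hR)
  have e4 : I V (fun x => Vale.Agent.P245.H866.Lt t U.1 x * Vale.Agent.P245.H866.Lt t U.1 x) =
      ‖AA h.toTF U‖ ^ 2 := by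
    rw [normsq_A h]
    congr 1
    funext x
    rw [sq]
    rfl
  rw [e4] at h4
  have e5 : ∑ j, ‖AA h.toTF (ζ j)‖ ^ 2 = ∑ i, I V (fun x => Lt t (ζ i).1 x ^ 2) :=
    Finset.sum_congr rfl fun i _ => normsq_A h _
  rw [e5]
  have h5 := mul_le_mul_of_nonneg_left h3 (sq_nonneg c)
  linarith

/-- the fluctuation of `p` -/
theorem fluct (h : TE V t lam Lam) (hR : Reg V c1 C1) {CK : ℝ} (hC : 0 < CK) (hK : KI V t CK)
    (hg : Gp (JJ h.toTF) (AA h.toTF) (oo hR) (I V (fun _ => 1))) (U : TS n) :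
    ∑ j, ‖PP h hR U j - (inner ℝ (PP h hR U j) (oo hR) / I V (fun _ => 1)) • oo hR‖ ^ 2 ≤
      CK * ‖AA h.toTF U‖ ^ 2 := by
  set Q : Fin n → MeasureTheory.Lp ℝ 2 (mu V) :=
    fun j => PP h hR U j - (inner ℝ (PP h hR U j) (oo hR) / I V (fun _ => 1)) • oo hR with hQ
  refine le_of_eps (R := 4 * (∑ j, ‖Q j‖) + n) fun δ hδ hδ1 => ?_
  have hz : ∀ j, ∃ ζ : TS n, ‖AA h.toTF ζ + Q j‖ ≤ δ := fun j =>
    hg.approx (dens h) (hg.perp (PP h hR U j)) hδ
  choose ζ hζ using hz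
  have h1 : ∀ j, ‖Q j‖ ^ 2 ≤ δ * ‖Q j‖ + I V (Gam t (ζ j).1 (Dt t j U.1)) := by
    intro j
    have e1 : ‖Q j‖ ^ 2 = inner ℝ (AA h.toTF (ζ j) + Q j) (Q j) - inner ℝ (AA h.toTF (ζ j)) (Q j) := by
      rw [inner_add_left, real_inner_self_eq_norm_sq]; ring
    have e2 : inner ℝ (AA h.toTF (ζ j)) (Q j) = - I V (Gam t (ζ j).1 (Dt t j U.1)) := by
      rw [hQ]
      simp only
      rw [hg.inner_perp, inner_AP]
    have e3 : inner ℝ (AA h.toTF (ζ j) + Q j) (Q j) ≤ δ * ‖Q j‖ :=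
      (real_inner_le_norm _ _).trans (mul_le_mul_of_nonneg_right (hζ j) (norm_nonneg _))
    rw [e1, e2]
    linarith
  have h2 : ∀ j, ‖AA h.toTF (ζ j)‖ ^ 2 ≤ ‖Q j‖ ^ 2 + 2 * δ * ‖Q j‖ + δ := by
    intro j
    have e : AA h.toTF (ζ j) = (AA h.toTF (ζ j) + Q j) - Q j := by abel
    have h3 : ‖AA h.toTF (ζ j)‖ ≤ ‖Q j‖ + δ := by
      calc ‖AA h.toTF (ζ j)‖ = ‖(AA h.toTF (ζ j) + Q j) - Q j‖ := by rw [← e]
        _ ≤ ‖AA h.toTF (ζ j) + Q j‖ + ‖Q j‖ := norm_sub_le _ _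
        _ ≤ ‖Q j‖ + δ := by linarith [hζ j]
    have h4 : ‖AA h.toTF (ζ j)‖ ^ 2 ≤ (‖Q j‖ + δ) ^ 2 := pow_le_pow_left₀ (norm_nonneg _) h3 2
    nlinarith
  have hV : Continuous V := h.V2.continuous
  have h5 : I V (fun x => ∑ j, Gam t (ζ j).1 (Dt t j U.1) x) =
      ∑ j, I V (Gam t (ζ j).1 (Dt t j U.1)) :=
    I_sum _ hV fun j _ => Vale.Agent.P245.H464.ci_Gam h.toTF (Test.lc (ζ j).2)
      (Vale.Agent.P245.H866.lc_Dt h.toTF U.2 j).1
  have h6 := mat_int h hR hK U ζ (c := 1 / CK)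
  rw [h5] at h6
  have h7 : ∑ j, ‖Q j‖ ^ 2 ≤ δ * (∑ j, ‖Q j‖) + ∑ j, I V (Gam t (ζ j).1 (Dt t j U.1)) := by
    rw [Finset.mul_sum, ← Finset.sum_add_distrib]
    exact Finset.sum_le_sum fun j _ => h1 j
  have h8 : ∑ j, ‖AA h.toTF (ζ j)‖ ^ 2 ≤ (∑ j, ‖Q j‖ ^ 2) + 2 * δ * (∑ j, ‖Q j‖) + n * δ := by
    calc ∑ j, ‖AA h.toTF (ζ j)‖ ^ 2 ≤ ∑ j, (‖Q j‖ ^ 2 + 2 * δ * ‖Q j‖ + δ) :=
          Finset.sum_le_sum fun j _ => h2 j
      _ = (∑ j, ‖Q j‖ ^ 2) + 2 * δ * (∑ j, ‖Q j‖) + n * δ := by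
          rw [Finset.sum_add_distrib, Finset.sum_add_distrib, Finset.mul_sum]
          simp
  set S := ∑ j, ‖Q j‖ ^ 2
  set W := ∑ j, ‖Q j‖
  set T := ∑ j, I V (Gam t (ζ j).1 (Dt t j U.1))
  set N := ∑ j, ‖AA h.toTF (ζ j)‖ ^ 2
  have h9 : 2 * T ≤ N + CK * ‖AA h.toTF U‖ ^ 2 := by
    have e : CK * (2 * (1 / CK) * T) ≤ CK * ((1 / CK) ^ 2 * (CK * N) + ‖AA h.toTF U‖ ^ 2) :=
      mul_le_mul_of_nonneg_left h6 hC.le
    have e1 : CK * (2 * (1 / CK) * T) = 2 * T := by field_simp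
    have e2 : CK * ((1 / CK) ^ 2 * (CK * N) + ‖AA h.toTF U‖ ^ 2) = N + CK * ‖AA h.toTF U‖ ^ 2 := by
      field_simp
    rwa [e1, e2] at e
  linarith

/-- the means of `p` -/
theorem means (h : TE V t lam Lam) (hR : Reg V c1 C1) (hiso : Vale.Agent.P245.K.Iso V)
    (hg : Gp (JJ h.toTF) (AA h.toTF) (oo hR) (I V (fun _ => 1))) (U : TS n) :
    ∑ j, (inner ℝ (PP h hR U j) (oo hR)) ^ 2 ≤ I V (fun _ => 1) * ‖AA h.toTF U‖ ^ 2 := by
  have hV : Continuous V := h.V2.continuous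
  set Z := I V (fun _ => 1) with hZ
  have hZ0 : 0 < Z := Z_pos hR
  have hX : ∀ i : Fin n, MemLp (fun x : E n => x i) 2 (mu V) := by
    intro i
    rw [Vale.Agent.P245.H464.memLp_iff hV (by fun_prop)]
    exact hR.integrable_gr (Gr.pow (Gr.coord i) 2)
  have hEx : ∀ F : E n → ℝ, Ex V F = I V F / Z := by
    intro F
    rw [hZ, Z_eq]; rfl
  have hm : ∀ i : Fin n, I V (fun x => x i) = 0 := by
    intro i
    have := hiso.1 i
    rw [hEx, div_eq_zero_iff] at this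
    exact this.resolve_right hZ0.ne'
  have hc : ∀ i j : Fin n, I V (fun x => x i * x j) = if i = j then Z else 0 := by
    intro i j
    have := hiso.2 i j
    rw [hEx, div_eq_iff hZ0.ne'] at this
    rw [this]
    split_ifs <;> simp
  set X : Fin n → MeasureTheory.Lp ℝ 2 (mu V) := fun i => (hX i).toLp _ with hXdef
  have hXX : ∀ i j, inner ℝ (X i) (X j) = if i = j then Z else 0 := by
    intro i j
    rw [hXdef]
    simp only
    rw [inner_toLp hV (hX i) (hX j)]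
    exact hc i j
  have hXo : ∀ i, inner ℝ (X i) (oo hR) = 0 := by
    intro i
    have := inner_toLp hV (hX i) (memLp_GB hR (GB.const 1))
    rw [show inner ℝ (X i) (oo hR) = _ from this]
    have := hm i
    unfold I at this
    simpa using this
  set u := JJ h.toTF U - (inner ℝ (JJ h.toTF U) (oo hR) / Z) • oo hR with hu
  have h1 : ∀ j, inner ℝ (PP h hR U j) (oo hR) = inner ℝ (X j) u := by
    intro j
    have e1 : inner ℝ (PP h hR U j) (oo hR) = I V (Dt t j U.1) := by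
      have := inner_toLp hV (memLp_LC hR (Vale.Agent.P245.H866.lc_Dt h.toTF U.2 j))
        (memLp_GB hR (GB.const 1))
      rw [show inner ℝ (PP h hR U j) (oo hR) = _ from this]
      unfold I
      simp
    have e2 : inner ℝ (X j) (JJ h.toTF U) = I V (fun x => x j * U.1 x) :=
      inner_toLp hV (hX j) (memLp_ci h.V2.continuous (CI.of_lc (Test.lc U.2)))
    have e3 : I V (fun x => Dt t j U.1 x - x j * U.1 x) = 0 :=
      tcore h.toTF (Test.lc U.2) j (Eventually.of_forall fun x => rfl)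
    rw [I_sub hV (CI.of_lc (Vale.Agent.P245.H866.lc_Dt h.toTF U.2 j))
      (CI.of_lc (LC.mul_left (ll_coord j) (Test.lc U.2)))] at e3
    rw [hu, inner_sub_right, real_inner_smul_right, hXo, mul_zero, sub_zero, e2, e1]
    linarith
  have h2 : ∑ j, (inner ℝ (PP h hR U j) (oo hR)) ^ 2 = ∑ j, (inner ℝ (X j) u) ^ 2 :=
    Finset.sum_congr rfl fun j _ => by rw [h1 j]
  rw [h2]
  have h3 : ∑ j, (inner ℝ (X j) u) ^ 2 ≤ Z * ‖u‖ ^ 2 :=
    bessel hZ0 (fun i => by rw [hXX]; simp) (fun i j hij => by rw [hXX]; simp [hij]) u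
  refine h3.trans (mul_le_mul_of_nonneg_left ?_ hZ0.le)
  exact pow_le_pow_left₀ (norm_nonneg _) (hg.le_A U) 2

/-- `|p|² ≤ (C_K + 1) |L U|²` -/
theorem pbound (h : TE V t lam Lam) (hR : Reg V c1 C1) (hiso : Vale.Agent.P245.K.Iso V)
    {CK : ℝ} (hC : 0 < CK) (hK : KI V t CK)
    (hg : Gp (JJ h.toTF) (AA h.toTF) (oo hR) (I V (fun _ => 1))) (U : TS n) :
    ∑ j, ‖PP h hR U j‖ ^ 2 ≤ (CK + 1) * ‖AA h.toTF U‖ ^ 2 := by
  have h1 := fluct h hR hC hK hg U
  have h2 := means h hR hiso hg U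
  have hZ0 : 0 < I V (fun _ => 1) := Z_pos hR
  have h3 : ∀ j, ‖PP h hR U j - (inner ℝ (PP h hR U j) (oo hR) / I V (fun _ => 1)) • oo hR‖ ^ 2 =
      ‖PP h hR U j‖ ^ 2 - (inner ℝ (PP h hR U j) (oo hR)) ^ 2 / I V (fun _ => 1) := fun j =>
    hg.normsq _
  simp only [h3, Finset.sum_sub_distrib] at h1
  rw [← Finset.sum_div] at h1
  have h4 : (∑ j, (inner ℝ (PP h hR U j) (oo hR)) ^ 2) / I V (fun _ => 1) ≤ ‖AA h.toTF U‖ ^ 2 := by
    rw [div_le_iff₀ hZ0, mul_comm]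
    exact h2
  linarith

/-- the Poincaré inequality -/
theorem poinc (h : TE V t lam Lam) (hR : Reg V c1 C1) (hiso : Vale.Agent.P245.K.Iso V)
    {CK : ℝ} (hC : 0 < CK) (hK : KI V t CK)
    (hg : Gp (JJ h.toTF) (AA h.toTF) (oo hR) (I V (fun _ => 1))) {f : E n → ℝ} (hf : Test f) :
    Ex V (fun x => f x ^ 2) - (Ex V f) ^ 2 ≤ (CK + 1) * Ex V (fun x => ∑ a, (pd a f x) ^ 2) := by
  have hV : Continuous V := h.V2.continuous
  set Z := I V (fun _ => 1) with hZ
  have hZ0 : 0 < Z := Z_pos hR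
  set F : TS n := ⟨f, hf⟩ with hF
  set g := JJ h.toTF F - (inner ℝ (JJ h.toTF F) (oo hR) / Z) • oo hR with hgdef
  set D := I V (fun x => ∑ a, (pd a f x) ^ 2) with hD
  have key : ‖g‖ ^ 2 ≤ (CK + 1) * D := by
    refine le_of_eps (R := 4 * ‖g‖ + 1) fun δ hδ hδ1 => ?_
    obtain ⟨U, hU⟩ : ∃ U : TS n, ‖AA h.toTF U + g‖ ≤ δ :=
      hg.approx (dens h) (hg.perp (JJ h.toTF F)) hδ
    have h1 : ‖g‖ ^ 2 ≤ δ * ‖g‖ + I V (Gam t U.1 f) := by
      have e1 : ‖g‖ ^ 2 = inner ℝ (AA h.toTF U + g) g - inner ℝ (AA h.toTF U) g := by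
        rw [inner_add_left, real_inner_self_eq_norm_sq]; ring
      have e2 : inner ℝ (AA h.toTF U) g = - I V (Gam t U.1 f) := by
        rw [hgdef, hg.inner_perp, inner_AJ]
        exact ibpL' h.toTF U.2 (Test.lc hf)
      have e3 : inner ℝ (AA h.toTF U + g) g ≤ δ * ‖g‖ :=
        (real_inner_le_norm _ _).trans (mul_le_mul_of_nonneg_right hU (norm_nonneg _))
      rw [e1, e2]
      linarith
    have h2 : ‖AA h.toTF U‖ ≤ ‖g‖ + δ := by
      have e : AA h.toTF U = (AA h.toTF U + g) - g := by abel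
      calc ‖AA h.toTF U‖ = ‖(AA h.toTF U + g) - g‖ := by rw [← e]
        _ ≤ ‖AA h.toTF U + g‖ + ‖g‖ := norm_sub_le _ _
        _ ≤ ‖g‖ + δ := by linarith
    have h3 : 2 * I V (Gam t U.1 f) ≤ ‖AA h.toTF U‖ ^ 2 + (CK + 1) * D := by
      have lcP : ∀ j, LC (Dt t j U.1) := fun j => Vale.Agent.P245.H866.lc_Dt h.toTF U.2 j
      have lcf : ∀ a, LC (pd a f) := fun a => Test.lc (Vale.Agent.P245.H866.test_pd hf a)
      have cc : ∀ r : ℝ, Bd (fun _ : E n => r) := fun r => Bd.of_cont continuous_const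
      have ciP : CI (fun x => ∑ j, Dt t j U.1 x ^ 2) := by
        refine CI.sum _ fun j _ => ?_
        have := CI.mul_right (CI.of_lc (lcP j)) (Bd.of_ll (lcP j).1)
        simpa only [sq] using this
      have ciD : CI (fun x => ∑ a, (pd a f x) ^ 2) := by
        refine CI.sum _ fun a _ => ?_
        have := CI.mul_right (CI.of_lc (lcf a)) (Bd.of_ll (lcf a).1)
        simpa only [sq] using this
      have hC1 : 0 < CK + 1 := by linarith
      have hle : I V (fun x => 2 * Gam t U.1 f x) ≤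
          I V (fun x => (1 / (CK + 1)) * (∑ j, Dt t j U.1 x ^ 2) + (CK + 1) * ∑ a, (pd a f x) ^ 2) := by
        refine I_mono hV (CI.mul_left (cc _)
          (Vale.Agent.P245.H464.ci_Gam h.toTF (Test.lc U.2) (Test.lc hf).1))
          (CI.add (CI.mul_left (cc _) ciP) (CI.mul_left (cc _) ciD)) (Eventually.of_forall fun x => ?_)
        have e1 : Gam t U.1 f x = ∑ b, Dt t b U.1 x * pd b f x := by
          unfold Vale.Agent.P245.H464.Gam Dt
          rw [Finset.sum_comm]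
          refine Finset.sum_congr rfl fun b _ => ?_
          rw [Finset.sum_mul]
          refine Finset.sum_congr rfl fun a _ => ?_
          rw [h.symm x a b]
        rw [e1, Finset.mul_sum, Finset.mul_sum, Finset.mul_sum, ← Finset.sum_add_distrib]
        refine Finset.sum_le_sum fun b _ => ?_
        have h4 : 0 ≤ (1 / (CK + 1)) * (Dt t b U.1 x - (CK + 1) * pd b f x) ^ 2 := by positivity
        have h5 : (1 / (CK + 1)) * (Dt t b U.1 x - (CK + 1) * pd b f x) ^ 2 =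
            (1 / (CK + 1)) * Dt t b U.1 x ^ 2 + (CK + 1) * pd b f x ^ 2 -
              2 * (Dt t b U.1 x * pd b f x) := by
          field_simp
          ring
        linarith
      have l1 : I V (fun x => 2 * Gam t U.1 f x) = 2 * I V (Gam t U.1 f) := by
        unfold I
        rw [← integral_const_mul]
        congr 1; ext x; ring
      have l2 : I V (fun x => (1 / (CK + 1)) * (∑ j, Dt t j U.1 x ^ 2) +
          (CK + 1) * ∑ a, (pd a f x) ^ 2) =
          (1 / (CK + 1)) * I V (fun x => ∑ j, Dt t j U.1 x ^ 2) + (CK + 1) * D := by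
        rw [I_add hV (CI.mul_left (cc _) ciP) (CI.mul_left (cc _) ciD)]
        congr 1
        · unfold I
          rw [← integral_const_mul]
          congr 1; ext x; ring
        · rw [hD]
          unfold I
          rw [← integral_const_mul]
          congr 1; ext x; ring
      have l3 : I V (fun x => ∑ j, Dt t j U.1 x ^ 2) = ∑ j, ‖PP h hR U j‖ ^ 2 := by
        rw [I_sum _ hV fun j _ => by
          have := CI.mul_right (CI.of_lc (lcP j)) (Bd.of_ll (lcP j).1)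
          simpa only [sq] using this]
        exact Finset.sum_congr rfl fun j _ => (normsq_P h hR U j).symm
      rw [l1, l2, l3] at hle
      have h6 := pbound h hR hiso hC hK hg U
      have h7 : (1 / (CK + 1)) * ∑ j, ‖PP h hR U j‖ ^ 2 ≤ ‖AA h.toTF U‖ ^ 2 := by
        rw [one_div, inv_mul_le_iff₀ hC1]
        exact h6
      linarith
    have h4 : ‖AA h.toTF U‖ ^ 2 ≤ (‖g‖ + δ) ^ 2 := pow_le_pow_left₀ (norm_nonneg _) h2 2
    nlinarith [norm_nonneg g]
  have hEx : ∀ F : E n → ℝ, Ex V F = I V F / Z := by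
    intro F
    rw [hZ, Z_eq]; rfl
  have e1 : ‖g‖ ^ 2 = I V (fun x => f x ^ 2) - (I V f) ^ 2 / Z := by
    rw [hgdef, hg.normsq, normsq_J h, inner_Jo h hR]
  rw [hEx, hEx, hEx, ← hD]
  rw [e1] at key
  have h5 : I V (fun x => f x ^ 2) / Z - (I V f / Z) ^ 2 = (I V (fun x => f x ^ 2) - (I V f) ^ 2 / Z) / Z := by
    field_simp
  rw [h5, div_le_iff₀ hZ0]
  refine key.trans (le_of_eq ?_)
  field_simp

/-! ## the interface rows -/

theorem dom_test (h : TE V t lam Lam) (hR : Reg V c1 C1) {f : E n → ℝ} (hf : Test f) :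
    Vale.Agent.P245.K.Dom V t f (fun a => pd a f) (fun x => -(Lt t f x)) := by
  have hV : Continuous V := h.V2.continuous
  have sqi : ∀ g : E n → ℝ, LC g → Integrable (fun x => g x ^ 2 * Real.exp (-V x)) := by
    intro g hg
    exact (Vale.Agent.P245.H464.memLp_iff hV hg.1.continuous.aestronglyMeasurable).1 (memLp_LC hR hg)
  have l1 := Test.lc hf
  have l2 : ∀ a, LC (pd a f) := fun a => Test.lc (Vale.Agent.P245.H866.test_pd hf a)
  have l3 := Vale.Agent.P245.H464.lc_Lt h.toTF hf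
  refine ⟨fun _ => f, ⟨fun _ => hf, l1.1.continuous.measurable, fun a => (l2 a).1.continuous.measurable,
    l3.1.continuous.neg.measurable, sqi f l1, fun a => sqi _ (l2 a), ?_, ?_, ?_, ?_⟩⟩
  · simpa using sqi _ l3
  · simp [I]
  · intro a; simp [I]
  · simp [I]

theorem int_ci (h : TE V t lam Lam) {f : E n → ℝ} (hf : CI f) :
    Integrable (fun x => f x * Real.exp (-V x)) := hf.integrable h.V2.continuous

/-- the centred test function -/
theorem dom_cent (hlin : Vale.Agent.P245.K.StmtLin) {c C : ℝ} (hb : Vale.Agent.P245.K.Base V t c C)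
    {f : E n → ℝ} (hf : Test f) (m : ℝ) :
    Vale.Agent.P245.K.Dom V t (fun x => 1 * f x + (-m) * 1) (fun a x => 1 * pd a f x + (-m) * 0)
      (fun x => 1 * (-(Lt t f x)) + (-m) * 0) := by
  obtain ⟨c1, C1, hR⟩ := hb.reg
  obtain ⟨l1, l2, l3, l4, l5, l6⟩ := hlin n V t c C hb
  exact l1 _ _ _ _ _ _ (dom_test hb.toTE hR hf) l6 1 (-m)

theorem mean_cent (h : TE V t lam Lam) (hR : Reg V c1 C1) {f : E n → ℝ} (hf : Test f) :
    I V (fun x => 1 * f x + (-(I V f / I V (fun _ => 1))) * 1) = 0 := by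
  have hZ := Z_pos hR
  set Z := I V (fun _ => 1) with hZd
  set m := I V f / Z with hm
  have e : I V (fun x => 1 * f x + (-m) * 1) = I V f - m * Z := by
    have i1 := int_ci h (CI.of_lc (Test.lc hf))
    have i2 : Integrable (fun x => m * Real.exp (-V x)) := hR.integrable_exp.const_mul m
    rw [hZd]
    unfold I
    simp only [one_mul]
    rw [← integral_const_mul, ← integral_sub i1 i2]
    congr 1; ext x; ring
  rw [e, hm]
  field_simp
  ring

/-- the spectral gap in the abstract form -/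
theorem gap_of (hlin : Vale.Agent.P245.K.StmtLin) (hgap : Vale.Agent.P245.K.StmtGap) {c C : ℝ}
    (hb : Vale.Agent.P245.K.Base V t c C) (hR : Reg V c1 C1) (f : TS n) :
    ‖JJ hb.toTF f‖ ^ 2 - (inner ℝ (JJ hb.toTF f) (oo hR)) ^ 2 / I V (fun _ => 1) ≤
      - inner ℝ (AA hb.toTF f) (JJ hb.toTF f) := by
  have h := hb.toTE
  have hV : Continuous V := h.V2.continuous
  have hZ := Z_pos hR
  have hd := dom_cent hlin hb f.2 (I V f.1 / I V (fun _ => 1))
  have h1 := hgap n V t c C hb _ _ _ hd (mean_cent h hR f.2)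
  rw [normsq_J h, inner_Jo h hR, inner_AJ]
  set Z := I V (fun _ => 1) with hZd
  set m := I V f.1 / Z with hm
  have lf := Test.lc f.2
  have ll := Vale.Agent.P245.H464.lc_Lt h.toTF f.2
  have i0 := hR.integrable_exp
  have i1 := int_ci h (CI.of_lc lf)
  have i2 : Integrable (fun x => f.1 x ^ 2 * Real.exp (-V x)) := by
    have := int_ci h (CI.mul_right (CI.of_lc lf) (Bd.of_ll lf.1))
    simpa only [sq] using this
  have i3 : Integrable (fun x => Lt t f.1 x * f.1 x * Real.exp (-V x)) :=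
    int_ci h (CI.mul_right (CI.of_lc ll) (Bd.of_ll lf.1))
  have i4 : Integrable (fun x => Lt t f.1 x * Real.exp (-V x)) := int_ci h (CI.of_lc ll)
  have e1 : I V (fun x => (1 * f.1 x + (-m) * 1) ^ 2) = I V (fun x => f.1 x ^ 2) - 2 * m * I V f.1 + m ^ 2 * Z := by
    have i5 : Integrable (fun x => f.1 x ^ 2 * Real.exp (-V x) - 2 * m * (f.1 x * Real.exp (-V x))) :=
      i2.sub (i1.const_mul (2 * m))
    have i6 : Integrable (fun x => m ^ 2 * Real.exp (-V x)) := i0.const_mul _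
    have s1 : I V (fun x => (1 * f.1 x + (-m) * 1) ^ 2) =
        ∫ x, ((f.1 x ^ 2 * Real.exp (-V x) - 2 * m * (f.1 x * Real.exp (-V x))) + m ^ 2 * Real.exp (-V x)) := by
      unfold I
      congr 1; ext x; ring
    rw [s1, integral_add i5 i6, integral_sub i2 (i1.const_mul _), integral_const_mul, integral_const_mul,
      hZd, Z_eq]
    rfl
  have e2 : I V (fun x => (1 * f.1 x + (-m) * 1) * (1 * (-(Lt t f.1 x)) + (-m) * 0)) =
      - I V (fun x => Lt t f.1 x * f.1 x) + m * I V (Lt t f.1) := by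
    have i7 : Integrable (fun x => -(Lt t f.1 x * f.1 x * Real.exp (-V x))) := i3.neg
    have i8 : Integrable (fun x => m * (Lt t f.1 x * Real.exp (-V x))) := i4.const_mul _
    have s1 : I V (fun x => (1 * f.1 x + (-m) * 1) * (1 * (-(Lt t f.1 x)) + (-m) * 0)) =
        ∫ x, (-(Lt t f.1 x * f.1 x * Real.exp (-V x)) + m * (Lt t f.1 x * Real.exp (-V x))) := by
      unfold I
      congr 1; ext x; ring
    rw [s1, integral_add i7 i8, integral_neg, integral_const_mul]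
    rfl
  have e3 : I V (Lt t f.1) = 0 := by
    have := inner_Ao h hR f
    have h5 := inner_toLp hV (memLp_ci hV (CI.of_lc ll)) (memLp_GB hR (GB.const 1))
    rw [show inner ℝ (AA h.toTF f) (oo hR) = _ from h5] at this
    unfold I
    simpa using this
  rw [e1, e2, e3] at h1
  have e4 : I V (fun x => f.1 x ^ 2) - 2 * m * I V f.1 + m ^ 2 * Z =
      I V (fun x => f.1 x ^ 2) - I V f.1 ^ 2 / Z := by
    rw [hm]
    field_simp
    ring
  rw [e4] at h1
  linarith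

/-- (K) for test functions from `StmtK` -/
theorem ki_of (hlin : Vale.Agent.P245.K.StmtLin) {C₀ : ℝ}
    (hK : ∀ (n : ℕ) (V : E n → ℝ) (t : E n → Matrix (Fin n) (Fin n) ℝ) (c C : ℝ),
      Vale.Agent.P245.K.Base V t c C → Vale.Agent.P245.K.Iso V →
      ∀ (z Az : Fin n → E n → ℝ) (Dz : Fin n → Fin n → E n → ℝ),
      (∀ i, Vale.Agent.P245.K.Dom V t (z i) (Dz i) (Az i)) → (∀ i, I V (z i) = 0) →
      Vale.Agent.P245.K.KG V t t Dz Dz ≤ C₀ * ∑ i, I V (fun x => Az i x ^ 2))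
    {c C : ℝ} (hb : Vale.Agent.P245.K.Base V t c C) (hiso : Vale.Agent.P245.K.Iso V) : KI V t C₀ := by
  intro ζ hζ
  obtain ⟨c1, C1, hR⟩ := hb.reg
  have h1 := hK n V t c C hb hiso _ _ _
    (fun i => dom_cent hlin hb (hζ i) (I V (ζ i) / I V (fun _ => 1)))
    (fun i => mean_cent hb.toTE hR (hζ i))
  have e1 : Vale.Agent.P245.K.KG V t t
      (fun i a x => 1 * pd a (ζ i) x + (-(I V (ζ i) / I V (fun _ => 1))) * 0)
      (fun i a x => 1 * pd a (ζ i) x + (-(I V (ζ i) / I V (fun _ => 1))) * 0) =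
      I V (fun x => ∑ i, ∑ j, t x i j * Gam t (ζ i) (ζ j) x) := by
    unfold Vale.Agent.P245.K.KG Vale.Agent.P245.K.ip Vale.Agent.P245.H464.Gam
    simp only [one_mul, mul_zero, add_zero]
  have e2 : ∑ i, I V (fun x => (1 * (-(Lt t (ζ i) x)) + (-(I V (ζ i) / I V (fun _ => 1))) * 0) ^ 2) =
      ∑ i, I V (fun x => Lt t (ζ i) x ^ 2) := by
    refine Finset.sum_congr rfl fun i _ => ?_
    congr 1; funext x; ring
  rw [e1, e2] at h1
  exact h1

/-- **row HP** -/
theorem preg (hK : Vale.Agent.P245.K.StmtK) (hlin : Vale.Agent.P245.K.StmtLin)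
    (hgap : Vale.Agent.P245.K.StmtGap) : Vale.Agent.P245.K.StmtPreg := by
  obtain ⟨C₀, hC₀, hK⟩ := hK
  refine ⟨C₀ + 1, by linarith, fun n V t c C hb hiso f hf => ?_⟩
  obtain ⟨c1, C1, hR⟩ := hb.reg
  exact poinc hb.toTE hR hiso hC₀ (ki_of hlin hK hb hiso)
    (gp hb.toTE hR (gap_of hlin hgap hb hR)) hf

end Vale.Agent.P245.HPR
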